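import Vale.Agent.Lib.P310.Tab.Rules
import Mathlib

/-!
# The tableau symbols of a run of a machine
-/

namespace Vale.Agent.Lib.P310.Tab

open Mach

variable {a b : ℕ} (M : TM (Fin a) (Fin b)) (w : List Bool) (s r : ℕ)

/-- The tableau symbol of a cell in a configuration. -/
def cellC (c : Cfg (Fin a) (Fin b)) (p : ℕ) : ℕ :=
  (c.tape p).val + b * (if c.head = p then c.q.val + 1 else 0)

/-- The tableau symbol of cell `p` at time `t`. -/
noncomputable def cell (t p : ℕ) : ℕ := cellC (M.run w t) p

lemma cellC_lt (c : Cfg (Fin a) (Fin b)) (p : ℕ) : cellC c p < b * (a + 1) := by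
  have h1 := (c.tape p).isLt
  have h2 := c.q.isLt
  unfold cellC
  split_ifs
  · have : b * (c.q.val + 1) + b ≤ b * (a + 1) := by
      have : b * (c.q.val + 1 + 1) ≤ b * (a + 1) := Nat.mul_le_mul_left _ (by omega)
      linarith [Nat.mul_succ b (c.q.val + 1)]
    omega
  · have : b * 1 ≤ b * (a + 1) := Nat.mul_le_mul_left _ (by omega)
    simp only [mul_zero, add_zero]
    omega

lemma symA_add {x h : ℕ} (D : TD) (hb : D.nΓ = b) (hx : x < b) : D.symA (x + b * h) = x := by
  unfold TD.symA
  rw [hb, Nat.add_mul_mod_self_left, Nat.mod_eq_of_lt hx]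

lemma symH_add {x h : ℕ} (D : TD) (hb : D.nΓ = b) (hx : x < b) : D.symH (x + b * h) = h := by
  unfold TD.symH
  have hb0 : 0 < b := by omega
  rw [hb, Nat.add_mul_div_left _ _ hb0, Nat.div_eq_of_lt hx, zero_add]

lemma active_iff (D : TD) (σ : ℕ) :
    D.active σ = true ↔ D.symH σ ≠ 0 ∧ D.symH σ ≠ 2 ∧ D.symH σ ≠ 3 := by
  simp [TD.active]

section Ofm

variable {M w s r}

lemma ofTM_dq (q : Fin a) (x : Fin b) :
    (ofTM M w s r).dq q.val x.val = (M.δ q x).1.val := by
  simp [ofTM]

lemma ofTM_da (q : Fin a) (x : Fin b) :
    (ofTM M w s r).da q.val x.val = (M.δ q x).2.1.val := by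
  simp [ofTM]

lemma ofTM_dm (q : Fin a) (x : Fin b) :
    (ofTM M w s r).dm q.val x.val = if (M.δ q x).2.2 then 1 else 0 := by
  simp [ofTM]

end Ofm

variable {M w s r}

lemma symA_cellC (c : Cfg (Fin a) (Fin b)) (p : ℕ) :
    (ofTM M w s r).symA (cellC c p) = (c.tape p).val :=
  symA_add _ rfl (c.tape p).isLt

lemma symH_cellC (c : Cfg (Fin a) (Fin b)) (p : ℕ) :
    (ofTM M w s r).symH (cellC c p) = if c.head = p then c.q.val + 1 else 0 :=
  symH_add _ rfl (c.tape p).isLt

lemma active_cellC (hM : IsNormal M) (c : Cfg (Fin a) (Fin b)) (p : ℕ) :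
    (ofTM M w s r).active (cellC c p) = true ↔ c.head = p ∧ c.q ≠ M.acc ∧ c.q ≠ M.rej := by
  rw [active_iff, symH_cellC]
  have h1 : c.q = M.acc ↔ c.q.val = 1 := by
    rw [Fin.ext_iff, hM.acc]
  have h2 : c.q = M.rej ↔ c.q.val = 2 := by
    rw [Fin.ext_iff, hM.rej]
  by_cases hp : c.head = p
  · simp [hp, h1, h2]
  · simp [hp]

/-- The left neighbour of a cell in a configuration. -/
def leftC (D : TD) (c : Cfg (Fin a) (Fin b)) (p : ℕ) : ℕ :=
  if p = 0 then D.sent else cellC c (p - 1)

lemma sent_eq : (ofTM M w s r).sent = b * (a + 1) := rfl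

lemma cellC_ne_sent (c : Cfg (Fin a) (Fin b)) (p : ℕ) : cellC c p ≠ (ofTM M w s r).sent := by
  rw [sent_eq]
  exact (cellC_lt c p).ne

lemma leftC_eq_sent_iff (c : Cfg (Fin a) (Fin b)) (p : ℕ) :
    leftC (ofTM M w s r) c p = (ofTM M w s r).sent ↔ p = 0 := by
  unfold leftC
  by_cases hp : p = 0
  · simp [hp]
  · simp only [hp, if_false, iff_false]
    exact cellC_ne_sent c _

/-- One step of the machine, read off a cell and its two neighbours. -/
lemma next_cellC (hM : IsNormal M) (c : Cfg (Fin a) (Fin b)) (p : ℕ) :
    (ofTM M w s r).next (leftC (ofTM M w s r) c p) (cellC c p) (cellC c (p + 1)) =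
      cellC (M.step c) p := by
  classical
  set D := ofTM M w s r with hD
  by_cases hq : c.q = M.acc ∨ c.q = M.rej
  · -- halted
    have hstep : M.step c = c := by simp [TM.step, hq]
    rw [hstep]
    have hna : ∀ i, D.active (cellC c i) = false := by
      intro i
      rcases hh : D.active (cellC c i) with _ | _
      · rfl
      · have := (active_cellC (w := w) (s := s) (r := r) hM c i).mp hh
        rcases hq with hq | hq
        · exact absurd hq this.2.1
        · exact absurd hq this.2.2
    have hnl : ¬ (leftC D c p ≠ D.sent ∧ D.active (leftC D c p) = true ∧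
        D.dm (D.symH (leftC D c p) - 1) (D.symA (leftC D c p)) = 1) := by
      rintro ⟨h1, h2, -⟩
      have hp : p ≠ 0 := fun hp => h1 ((leftC_eq_sent_iff c p).mpr hp)
      have : leftC D c p = cellC c (p - 1) := by simp [leftC, hp]
      rw [this, hna] at h2
      exact absurd h2 (by simp)
    unfold TD.next
    rw [hna p, hna (p + 1)]
    simp only [Bool.false_eq_true, if_false, false_and]
    rw [if_neg hnl]
    by_cases hp : c.head = p
    · have : D.symH (cellC c p) ≠ 0 := by
        rw [hD, symH_cellC]; simp [hp]
      rw [if_pos this]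
    · have : D.symH (cellC c p) = 0 := by
        rw [hD, symH_cellC]; simp [hp]
      rw [if_neg (by simp [this])]
      rw [hD, symA_cellC]
      simp [cellC, hp]
  · -- running
    have hq1 : c.q ≠ M.acc := fun h => hq (Or.inl h)
    have hq2 : c.q ≠ M.rej := fun h => hq (Or.inr h)
    have hstep : M.step c = ⟨(M.δ c.q (c.tape c.head)).1,
        Function.update c.tape c.head (M.δ c.q (c.tape c.head)).2.1,
        if (M.δ c.q (c.tape c.head)).2.2 then c.head + 1 else c.head - 1⟩ := by
      simp [TM.step, hq]
    rw [hstep]
    set q' := (M.δ c.q (c.tape c.head)).1 with hq'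
    set a' := (M.δ c.q (c.tape c.head)).2.1 with ha'
    set dir := (M.δ c.q (c.tape c.head)).2.2 with hdir
    have hRHS : cellC (⟨q', Function.update c.tape c.head a',
        if dir then c.head + 1 else c.head - 1⟩ : Cfg (Fin a) (Fin b)) p =
        (Function.update c.tape c.head a' p).val +
          b * (if (if dir then c.head + 1 else c.head - 1) = p then q'.val + 1 else 0) := rfl
    rw [hRHS]
    have hact : ∀ i, D.active (cellC c i) = true ↔ c.head = i := by
      intro i
      rw [hD, active_cellC hM]
      simp [hq1, hq2]
    have hH : D.symH (cellC c c.head) - 1 = c.q.val := by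
      rw [hD, symH_cellC]; simp
    have hA : D.symA (cellC c c.head) = (c.tape c.head).val := by
      rw [hD, symA_cellC]
    have hdm : D.dm c.q.val (c.tape c.head).val = if dir then 1 else 0 := by
      rw [hD, ofTM_dm]
    have hda : D.da c.q.val (c.tape c.head).val = a'.val := by
      rw [hD, ofTM_da]
    have hdq : D.dq c.q.val (c.tape c.head).val = q'.val := by
      rw [hD, ofTM_dq]
    have hΓ : D.nΓ = b := rfl
    have hLsent : ∀ i, leftC D c i = D.sent ↔ i = 0 := fun i => leftC_eq_sent_iff c i
    by_cases hp : c.head = p
    · -- the head is here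
      subst hp
      have hC : D.active (cellC c c.head) = true := (hact _).mpr rfl
      unfold TD.next
      rw [if_pos hC]
      simp only [hH, hA, hdm, hda, hdq, hLsent, hΓ, Function.update_self]
      by_cases hdir' : dir = true
      · simp [hdir']
      · have hd0 : dir = false := by simpa using hdir'
        by_cases h0 : c.head = 0
        · simp [hd0, h0]
        · have : c.head - 1 ≠ c.head := by omega
          simp [hd0, h0, this]
    · -- the head is elsewhere
      have hC : ¬ D.active (cellC c p) = true := by
        rw [hact]; exact hp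
      have hHp : D.symH (cellC c p) = 0 := by
        rw [hD, symH_cellC]; simp [hp]
      have hAp : D.symA (cellC c p) = (c.tape p).val := by
        rw [hD, symA_cellC]
      unfold TD.next
      rw [if_neg hC, if_neg (by simp [hHp]), hAp, hΓ, Function.update_of_ne (Ne.symm hp)]
      by_cases hleft : p ≠ 0 ∧ c.head = p - 1
      · -- the head is on the left neighbour
        have hL : leftC D c p = cellC c c.head := by
          simp only [leftC, hleft.1, if_false]; rw [hleft.2]
        have hLs : leftC D c p ≠ D.sent := by
          rw [hL]; exact cellC_ne_sent c _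
        rw [hL] at hLs ⊢
        have hLa : D.active (cellC c c.head) = true := (hact _).mpr rfl
        by_cases hdir' : dir = true
        · have hh : c.head + 1 = p := by have := hleft.1; have := hleft.2; omega
          simp only [hH, hA, hdm, hdq, hdir', if_true, hLa, hLs]
          simp [hh, hLs]
        · have hd0 : dir = false := by simpa using hdir'
          have hR : ¬ D.active (cellC c (p + 1)) = true := by
            rw [hact]; have := hleft.1; have := hleft.2; omega
          have hne : c.head - 1 ≠ p := by have := hleft.1; have := hleft.2; omega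
          simp only [hH, hA, hdm, hd0, if_false, hR, hLa, hLs]
          simp [hne]
      · have hLn : ¬ (leftC D c p ≠ D.sent ∧ D.active (leftC D c p) = true ∧
            D.dm (D.symH (leftC D c p) - 1) (D.symA (leftC D c p)) = 1) := by
          rintro ⟨h1, h2, -⟩
          have hp0 : p ≠ 0 := fun hp0 => h1 ((leftC_eq_sent_iff c p).mpr hp0)
          have : leftC D c p = cellC c (p - 1) := by simp [leftC, hp0]
          rw [this, hact] at h2
          exact hleft ⟨hp0, h2⟩
        rw [if_neg hLn]
        by_cases hright : c.head = p + 1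
        · have hRa : D.active (cellC c (p + 1)) = true := (hact _).mpr hright
          have hH' : D.symH (cellC c (p + 1)) - 1 = c.q.val := by
            rw [← hright]; exact hH
          have hA' : D.symA (cellC c (p + 1)) = (c.tape c.head).val := by
            rw [← hright]; exact hA
          by_cases hdir' : dir = true
          · have hne : c.head + 1 ≠ p := by omega
            simp [hRa, hH', hA', hdm, hdir', hne]
          · have hd0 : dir = false := by simpa using hdir'
            have he : c.head - 1 = p := by omega
            simp [hRa, hH', hA', hdm, hd0, hdq, he]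
        · have hRn : ¬ D.active (cellC c (p + 1)) = true := by
            rw [hact]; exact hright
          have hne : (if dir then c.head + 1 else c.head - 1) ≠ p := by
            split_ifs with hd
            · intro h; exact hleft ⟨by omega, by omega⟩
            · intro h; omega
          simp [hRn, hne]

lemma run_succ (t : ℕ) : M.run w (t + 1) = M.step (M.run w t) := by
  simp [TM.run, Function.iterate_succ_apply']

lemma cell_succ (hM : IsNormal M) (t p : ℕ) :
    (ofTM M w s r).next (leftC (ofTM M w s r) (M.run w t) p) (cell M w t p) (cell M w t (p + 1)) =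
      cell M w (t + 1) p := by
  rw [cell, cell, cell, run_succ]
  exact next_cellC hM _ _

lemma head_le (t : ℕ) : (M.run w t).head ≤ t := by
  induction t with
  | zero => simp [TM.run, TM.init]
  | succ t ih =>
    rw [run_succ]
    unfold TM.step
    split_ifs
    · omega
    · show (M.run w t).head + 1 ≤ t + 1
      omega
    · show (M.run w t).head - 1 ≤ t + 1
      omega

lemma tape_untouched (t i : ℕ) (hi : t ≤ i) : (M.run w t).tape i = (M.init w).tape i := by
  induction t with
  | zero => rfl
  | succ t ih =>
    rw [run_succ]
    unfold TM.step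
    have h1 := head_le (M := M) (w := w) t
    split_ifs
    · exact ih (by omega)
    all_goals
      show Function.update _ _ _ i = _
      rw [Function.update_of_ne (by omega)]
      exact ih (by omega)

lemma cell_blank (hM : IsNormal M) {t p : ℕ} (h1 : t < p) (h2 : w.length ≤ p) : cell M w t p = 0 := by
  have h3 := head_le (M := M) (w := w) t
  have h4 := tape_untouched (M := M) (w := w) t p (by omega)
  unfold cell cellC
  rw [h4, if_neg (by omega)]
  simp [TM.init, List.getElem?_eq_none h2, hM.blank]

lemma cell_zero (hM : IsNormal M) (p : ℕ) : cell M w 0 p = (ofTM M w s r).initSym p := by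
  unfold cell cellC TD.initSym
  have h0 : M.run w 0 = M.init w := rfl
  rw [h0]
  have hi : ((M.init w).tape p).val = (ofTM M w s r).inS p := by
    simp only [TM.init, ofTM]
    cases h : w[p]? with
    | none => simp [hM.blank]
    | some x => cases x <;> simp [hM.bit0, hM.bit1]
  rw [hi]
  have hΓ : (ofTM M w s r).nΓ = b := rfl
  rw [hΓ]
  simp only [TM.init]
  by_cases hp : p = 0
  · simp [hp, hM.start]
  · have : ¬ 0 = p := fun h => hp h.symm
    simp [hp, this]

end Vale.Agent.Lib.P310.Tab
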