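import Vale.Agent.Lib.P310.Tab.Complete
import Vale.Agent.Lib.P310.Tab.Machine

/-!
# The tableau of a machine: the query is derivable exactly when the machine accepts in time
-/

namespace Vale.Agent.Lib.P310.Tab

open Mach

lemma isTableau_cell {a b : ℕ} (M : TM (Fin a) (Fin b)) (w : List Bool) (s r : ℕ)
    (hM : IsNormal M) (hs : 2 ≤ s) (hr : 1 ≤ r) (hw : w.length ≤ s) :
    TD.IsTableau (ofTM M w s r) (cell M w) where
  hs := hs
  hr := hr
  lt t p := cellC_lt _ _
  init p _ := cell_zero hM p
  blank p hp := cell_blank hM (lt_of_lt_of_le (by omega : 0 < s) hp) (le_trans hw hp)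
  step t p := cell_succ hM t p
  edge t ht := by
    have hsr : s ≤ s ^ r := Nat.le_self_pow (by omega) s
    exact cell_blank hM ht (le_trans hw hsr)

/-- The query of the tableau program is derivable exactly when the machine accepts in time. -/
theorem derives_iff {a b : ℕ} (M : TM (Fin a) (Fin b)) (hM : IsNormal M) (w : List Bool) (s r : ℕ)
    (hs : 2 ≤ s) (hr : 1 ≤ r) (hw : w.length ≤ s) {V : Type} [AddCommGroup V] (e : V ≃ Fin s) :
    ((ofTM M w s r).prog e).Derives (ofTM M w s r).stAF (fun _ => TD.toV e 0) ↔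
      ∃ t < s ^ r, (M.run w t).q = M.acc := by
  have hc := isTableau_cell M w s r hM hs hr hw
  constructor
  · intro h
    have h1 := TD.sound (c := cell M w) hc h
    obtain ⟨t, ht, p, hp⟩ := h1.2.2.2.2.1 rfl
    refine ⟨t, ht, ?_⟩
    have h2 := symH_cellC (M := M) (w := w) (s := s) (r := r) (M.run w t) p
    have h3 : (ofTM M w s r).symH (cell M w t p) = _ := h2
    rw [hp] at h3
    split_ifs at h3
    apply Fin.ext
    rw [hM.acc]
    omega
  · rintro ⟨t, ht, hq⟩
    have hp : (M.run w t).head < s ^ r := lt_of_le_of_lt (head_le t) ht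
    refine TD.der_query (e := e) hc ht hp ?_
    have h2 := symH_cellC (M := M) (w := w) (s := s) (r := r) (M.run w t) (M.run w t).head
    have h3 : (ofTM M w s r).symH (cell M w t (M.run w t).head) = _ := h2
    rw [h3, if_pos rfl, hq, hM.acc]

end Vale.Agent.Lib.P310.Tab
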