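import Vale.Agent.Lib.P310.Mach.TM
import Vale.Agent.Lib.P310.Alt.ProgDefs

/-!
# The tableau of a machine as a register program: numeric description of the rules

A machine with `nQ` states and `nΓ` symbols is described by number tables. Time and head position
are written with `r` digits each, in base `s`, in the registers `0, ..., r - 1` and
`r, ..., 2 * r - 1`. A tableau symbol is a number `a + nΓ * h`, where `a < nΓ` is the tape symbol
and `h = 0` (no head) or `h = q + 1` (head in state `q`); the number `nΓ * (nQ + 1)` is the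
sentinel to the left of cell `0`. All fields of a rule are functions of its number `τ`.
-/

namespace Vale.Agent.Lib.P310.Tab

/-- The number tables of a machine with an input: the next state, the written symbol and the
direction (`1` is right), and the symbol initially in a cell. States `1` and `2` are the halting
states, state `0` the initial one, symbol `0` is blank. -/
structure TD where
  nQ : ℕ
  nΓ : ℕ
  s : ℕ
  r : ℕ
  dq : ℕ → ℕ → ℕ
  da : ℕ → ℕ → ℕ
  dm : ℕ → ℕ → ℕ
  inS : ℕ → ℕ

namespace TD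

variable (D : TD)

/-- The number of tableau symbols, with the sentinel. -/
def S : ℕ := D.nΓ * (D.nQ + 1) + 1
/-- The sentinel. -/
def sent : ℕ := D.nΓ * (D.nQ + 1)
/-- The tape symbol of a tableau symbol. -/
def symA (σ : ℕ) : ℕ := σ % D.nΓ
/-- The head part of a tableau symbol. -/
def symH (σ : ℕ) : ℕ := σ / D.nΓ
/-- A head in a state that is not halting. -/
def active (σ : ℕ) : Bool := D.symH σ ≠ 0 ∧ D.symH σ ≠ 2 ∧ D.symH σ ≠ 3

/-- The tableau symbol below `σC`, given its left and right neighbours. -/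
def next (σL σC σR : ℕ) : ℕ :=
  if D.active σC then
    if D.dm (D.symH σC - 1) (D.symA σC) = 0 ∧ σL = D.sent then
      D.da (D.symH σC - 1) (D.symA σC) + D.nΓ * (D.dq (D.symH σC - 1) (D.symA σC) + 1)
    else D.da (D.symH σC - 1) (D.symA σC)
  else if D.symH σC ≠ 0 then σC
  else if σL ≠ D.sent ∧ D.active σL ∧ D.dm (D.symH σL - 1) (D.symA σL) = 1 then
    D.symA σC + D.nΓ * (D.dq (D.symH σL - 1) (D.symA σL) + 1)
  else if D.active σR ∧ D.dm (D.symH σR - 1) (D.symA σR) = 0 then
    D.symA σC + D.nΓ * (D.dq (D.symH σR - 1) (D.symA σR) + 1)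
  else D.symA σC

/-- Control states: cell. -/
def stC (σ : ℕ) : ℕ := σ
/-- Control states: left neighbour. -/
def stL (σ : ℕ) : ℕ := D.S + σ
/-- Control states: right neighbour. -/
def stR (σ : ℕ) : ℕ := 2 * D.S + σ
/-- Control states: left neighbour and cell. -/
def stP (a b : ℕ) : ℕ := 3 * D.S + a * D.S + b
/-- Control states: accepted. -/
def stA : ℕ := 3 * D.S + D.S * D.S
/-- Control states: a state without any fact. -/
def stD : ℕ := D.stA + 1
/-- The number of control states. -/
def nP : ℕ := D.stD + 1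

/-- The number of rules. -/
def nR : ℕ := 10 * D.S * D.S * D.S * (2 * D.r) * D.s

/-- The fields of a rule number. -/
def fκ (τ : ℕ) : ℕ := τ % 10
def fs₁ (τ : ℕ) : ℕ := τ / 10 % D.S
def fs₂ (τ : ℕ) : ℕ := τ / 10 / D.S % D.S
def fs₃ (τ : ℕ) : ℕ := τ / 10 / D.S / D.S % D.S
def fj (τ : ℕ) : ℕ := τ / 10 / D.S / D.S / D.S % (2 * D.r)
def fa (τ : ℕ) : ℕ := τ / 10 / D.S / D.S / D.S / (2 * D.r)

/-- The tableau symbol of cell `a` at time `0`. -/
def initSym (a : ℕ) : ℕ := D.inS a + D.nΓ * (if a = 0 then 1 else 0)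

/-- Rule number `τ` is switched off: its first premise is the state without facts. -/
def off (τ : ℕ) : Bool :=
  if fκ τ = 1 then !(decide (D.fj τ < D.r) && decide (1 ≤ D.fj τ) && decide (D.fa τ ≠ 0))
  else if fκ τ = 2 ∨ fκ τ = 4 ∨ fκ τ = 7 then
    !(decide (D.fj τ < D.r) && decide (D.fa τ + 1 < D.s))
  else if fκ τ = 8 then decide (D.symH (D.fs₁ τ) ≠ 2)
  else false

/-- The first premise: `0` for none, `q + 1` for state `q`. -/
def prem₁N (τ : ℕ) : ℕ :=
  if D.off τ then D.stD + 1
  else if fκ τ = 2 ∨ fκ τ = 4 ∨ fκ τ = 8 then stC (D.fs₁ τ) + 1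
  else if fκ τ = 6 then D.stL (D.fs₁ τ) + 1
  else if fκ τ = 7 then D.stP (D.fs₁ τ) (D.fs₂ τ) + 1
  else if fκ τ = 9 then D.stA + 1
  else 0

/-- The second premise: `0` for none, `q + 1` for state `q`. -/
def prem₂N (τ : ℕ) : ℕ :=
  if fκ τ = 6 then stC (D.fs₂ τ) + 1
  else if fκ τ = 7 then D.stR (D.fs₃ τ) + 1
  else 0

/-- A tableau symbol, with numbers out of range replaced by blank. -/
def clampS (σ : ℕ) : ℕ := if σ < D.S then σ else 0

/-- The conclusion. -/
def conclN (τ : ℕ) : ℕ :=
  if fκ τ = 0 then stC (D.clampS (D.initSym (D.fa τ)))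
  else if fκ τ = 1 then stC 0
  else if fκ τ = 2 then D.stL (D.fs₁ τ)
  else if fκ τ = 3 then D.stL D.sent
  else if fκ τ = 4 then D.stR (D.fs₁ τ)
  else if fκ τ = 5 then D.stR 0
  else if fκ τ = 6 then D.stP (D.fs₁ τ) (D.fs₂ τ)
  else if fκ τ = 7 then stC (D.clampS (D.next (D.fs₁ τ) (D.fs₂ τ) (D.fs₃ τ)))
  else D.stA

/-- Guard of the increment with digit `j` and value `a`, on a block starting at register `b`. -/
def incGuard (b j a i : ℕ) : ℕ :=
  if i < b + j ∧ b ≤ i then D.s else if i = b + j then a + 1 else 0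

/-- Guard of the decrement with digit `j` and value `a + 1`, on a block starting at register `b`. -/
def decGuard (b j a i : ℕ) : ℕ :=
  if i < b + j ∧ b ≤ i then 1 else if i = b + j then a + 2 else 0

/-- The guard of rule `τ` at register `i`: `0` for none, `v + 1` for value `v`. -/
def guardN (τ i : ℕ) : ℕ :=
  if fκ τ = 0 then (if i = D.r then D.fa τ + 1 else if i < 2 * D.r then 1 else 0)
  else if fκ τ = 1 then (if i < D.r then 1 else if i = D.r + D.fj τ then D.fa τ + 1 else 0)
  else if fκ τ = 2 then D.incGuard D.r (D.fj τ) (D.fa τ) i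
  else if fκ τ = 3 then (if D.r ≤ i ∧ i < 2 * D.r then 1 else 0)
  else if fκ τ = 4 then decGuard D.r (D.fj τ) (D.fa τ) i
  else if fκ τ = 5 then (if D.r ≤ i ∧ i < 2 * D.r then D.s else 0)
  else if fκ τ = 7 then D.incGuard 0 (D.fj τ) (D.fa τ) i
  else if fκ τ = 9 then (if i = D.fj τ then D.fa τ + 1 else 0)
  else 0

/-- The translation of rule `τ` at register `i` takes the value `fromN τ i` to `toN τ i`. -/
def fromN (τ i : ℕ) : ℕ :=
  if fκ τ = 2 then
    (if i < D.r + D.fj τ ∧ D.r ≤ i then D.s - 1 else if i = D.r + D.fj τ then D.fa τ else 0)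
  else if fκ τ = 4 then
    (if i < D.r + D.fj τ ∧ D.r ≤ i then 0 else if i = D.r + D.fj τ then D.fa τ + 1 else 0)
  else if fκ τ = 7 then (if i < D.fj τ then D.s - 1 else if i = D.fj τ then D.fa τ else 0)
  else if fκ τ = 9 then (if i = D.fj τ then D.fa τ else 0)
  else 0

/-- The translation of rule `τ` at register `i` takes the value `fromN τ i` to `toN τ i`. -/
def toN (τ i : ℕ) : ℕ :=
  if fκ τ = 2 then
    (if i < D.r + D.fj τ ∧ D.r ≤ i then 0 else if i = D.r + D.fj τ then D.fa τ + 1 else 0)
  else if fκ τ = 4 then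
    (if i < D.r + D.fj τ ∧ D.r ≤ i then D.s - 1 else if i = D.r + D.fj τ then D.fa τ else 0)
  else if fκ τ = 7 then (if i < D.fj τ then 0 else if i = D.fj τ then D.fa τ + 1 else 0)
  else 0

/-- A number as a register value. -/
noncomputable def toV {V : Type} [Zero V] {s : ℕ} (e : V ≃ Fin s) (n : ℕ) : V :=
  if h : n < s then e.symm ⟨n, h⟩ else 0

/-- A number as an optional control state. -/
def optP (n : ℕ) : Option (Fin D.nP) :=
  match n with
  | 0 => none
  | q + 1 => if h : q < D.nP then some ⟨q, h⟩ else none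

/-- The rule with a given number. -/
noncomputable def rule {V : Type} [AddCommGroup V] (e : V ≃ Fin D.s) (τ : Fin D.nR) :
    Alt.Rule V (2 * D.r) D.nP where
  prem₁ := D.optP (D.prem₁N τ)
  prem₂ := D.optP (D.prem₂N τ)
  guard j :=
    match D.guardN τ j with
    | 0 => none
    | v + 1 => some (toV e v)
  add j := toV e (D.toN τ j) - toV e (D.fromN τ j)
  concl := ⟨D.conclN τ % D.nP, Nat.mod_lt _ (by unfold nP; omega)⟩

/-- The register program of the tableau. -/
noncomputable def prog {V : Type} [AddCommGroup V] (e : V ≃ Fin D.s) : Alt.Prog V (2 * D.r) where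
  nQ := D.nP
  nR := D.nR
  rule := D.rule e

/-- The control state `accepted`. -/
def stAF : Fin D.nP := ⟨D.stA, by unfold nP stD; omega⟩

end TD

open Mach in
/-- The tables of a machine with numbered states and symbols. -/
noncomputable def ofTM {a b : ℕ} (M : TM (Fin a) (Fin b)) (w : List Bool) (s r : ℕ) : TD where
  nQ := a
  nΓ := b
  s := s
  r := r
  dq q x := if h : q < a ∧ x < b then (M.δ ⟨q, h.1⟩ ⟨x, h.2⟩).1.val else 0
  da q x := if h : q < a ∧ x < b then (M.δ ⟨q, h.1⟩ ⟨x, h.2⟩).2.1.val else 0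
  dm q x := if h : q < a ∧ x < b then (if (M.δ ⟨q, h.1⟩ ⟨x, h.2⟩).2.2 then 1 else 0) else 0
  inS i :=
    match w[i]? with
    | none => 0
    | some false => 1
    | some true => 2

open Mach in
/-- The normal form of a machine: the initial, accepting and rejecting states are `0, 1, 2`, the
blank and the two bits are the symbols `0, 1, 2`. -/
structure IsNormal {a b : ℕ} (M : TM (Fin a) (Fin b)) : Prop where
  ha : 3 ≤ a
  hb : 3 ≤ b
  start : (M.start).val = 0
  acc : (M.acc).val = 1
  rej : (M.rej).val = 2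
  blank : (M.blank).val = 0
  bit0 : (M.bit false).val = 1
  bit1 : (M.bit true).val = 2

end Vale.Agent.Lib.P310.Tab
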