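import Vale.Agent.Lib.P310.Tab.Sound

/-!
# Completeness of the tableau rules: all true facts are derivable
-/

namespace Vale.Agent.Lib.P310.Tab.TD

variable {D : TD} {V : Type} [AddCommGroup V] {e : V ≃ Fin D.s} {τ i : ℕ}
  {x x' : Fin (2 * D.r) → V}

/-- A fact is derivable. -/
def Der (e : V ≃ Fin D.s) (q : ℕ) (x : Fin (2 * D.r) → V) : Prop :=
  ∃ h : q < D.nP, (D.prog e).Derives ⟨q, h⟩ x

/-- Every rule can be used. -/
lemma der_rule (hτ : τ < D.nR)
    (hx' : ∀ j : Fin (2 * D.r), x j + (toV e (D.toN τ j) - toV e (D.fromN τ j)) = x' j)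
    (hG : GuardAt e τ x) (H₁ : ∀ q, D.prem₁N τ = q + 1 → Der e q x)
    (H₂ : ∀ q, D.prem₂N τ = q + 1 → Der e q x) : Der e (D.conclN τ) x' := by
  have hlt := D.conclN_lt τ
  refine ⟨hlt, ?_⟩
  have h1 : (D.prog e).Derives ((D.prog e).rule ⟨τ, hτ⟩).concl
      (fun j => x j + ((D.prog e).rule ⟨τ, hτ⟩).add j) := by
    refine Alt.Prog.Derives.step ⟨τ, hτ⟩ x ((rule_guard_iff _ x).2 hG) ?_ ?_
    · intro q hq
      obtain ⟨h2, h3⟩ := H₁ q.val (optP_eq _ q hq)
      exact h3
    · intro q hq
      obtain ⟨h2, h3⟩ := H₂ q.val (optP_eq _ q hq)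
      exact h3
  have h2 : (fun j => x j + ((D.prog e).rule ⟨τ, hτ⟩).add j) = x' := funext hx'
  have h3 : ((D.prog e).rule ⟨τ, hτ⟩).concl = ⟨D.conclN τ, hlt⟩ := Fin.ext (rule_concl ⟨τ, hτ⟩)
  rw [h2, h3] at h1
  exact h1

/-- A rule with given fields. -/
lemma exists_rule {κ s₁ s₂ s₃ j a : ℕ} (hκ : κ < 10) (h₁ : s₁ < D.S) (h₂ : s₂ < D.S) (h₃ : s₃ < D.S)
    (hj : j < 2 * D.r) (ha : a < D.s) :
    ∃ τ < D.nR, fκ τ = κ ∧ D.fs₁ τ = s₁ ∧ D.fs₂ τ = s₂ ∧ D.fs₃ τ = s₃ ∧ D.fj τ = j ∧ D.fa τ = a :=
  ⟨D.code κ s₁ s₂ s₃ j a, code_lt hκ h₁ h₂ h₃ hj ha, fκ_code hκ, fs₁_code hκ h₁, fs₂_code hκ h₁ h₂,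
    fs₃_code hκ h₁ h₂ h₃, fj_code hκ h₁ h₂ h₃ hj, fa_code hκ h₁ h₂ h₃ hj⟩

/-- The translation of a rule. -/
noncomputable def addV (e : V ≃ Fin D.s) (τ : ℕ) : Fin (2 * D.r) → V :=
  fun j => toV e (D.toN τ j) - toV e (D.fromN τ j)

/-- The register vector before a rule. -/
noncomputable def back (e : V ≃ Fin D.s) (τ : ℕ) (x' : Fin (2 * D.r) → V) : Fin (2 * D.r) → V :=
  fun j => x' j - addV e τ j

lemma back_add : (fun j => back e τ x' j + addV e τ j) = x' := by
  funext j
  simp [back]

lemma back_move {i : ℕ} (hi : i < 2 * D.r) (h : x' ⟨i, hi⟩ = toV e (D.toN τ i)) :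
    back e τ x' ⟨i, hi⟩ = toV e (D.fromN τ i) := by
  simp [back, addV, h]

/-! ## The rules that move registers -/

section Two

variable (h2 : fκ τ = 2) (hj : D.fj τ < D.r) (ha : D.fa τ + 1 < D.s)
  (hlo : ∀ i < D.fj τ, dg e x' (D.r + i) = 0) (hdj : dg e x' (D.r + D.fj τ) = D.fa τ + 1)

include h2 hj hlo hdj in
lemma back_guard_two (hs : 1 ≤ D.s) : GuardAt e τ (back e τ x') := by
  intro i hi v hv
  rw [guard_two h2] at hv
  unfold incGuard at hv
  have hto : x' ⟨i, hi⟩ = toV e (D.toN τ i) := by
    rw [to_two h2]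
    split_ifs with h3 h4
    · have := hlo (i - D.r) (by omega)
      rw [show D.r + (i - D.r) = i by omega] at this
      exact dg_eq_of hi this
    · subst h4
      exact dg_eq_of hi hdj
    · rw [if_neg h3, if_neg h4] at hv
      omega
  rw [back_move hi hto, from_two h2]
  split_ifs at hv ⊢ with h3 h4
  · congr 1; omega
  · congr 1; omega

include h2 hj ha hlo hdj in
lemma back_two :
    blk e x' D.r = blk e (back e τ x') D.r + 1 ∧ blk e x' 0 = blk e (back e τ x') 0 := by
  have h1 := effect_two (e := e) (x := back e τ x') (a := addV e τ) h2 hj ha (fun _ => rfl)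
    (back_guard_two h2 hj hlo hdj (by omega))
  rwa [back_add] at h1

end Two

section Four

variable (h4 : fκ τ = 4) (hj : D.fj τ < D.r) (ha : D.fa τ + 1 < D.s)
  (hlo : ∀ i < D.fj τ, dg e x' (D.r + i) = D.s - 1) (hdj : dg e x' (D.r + D.fj τ) = D.fa τ)

include h4 hj hlo hdj in
lemma back_guard_four : GuardAt e τ (back e τ x') := by
  intro i hi v hv
  rw [guard_four h4] at hv
  unfold decGuard at hv
  have hto : x' ⟨i, hi⟩ = toV e (D.toN τ i) := by
    rw [to_four h4]
    split_ifs with h3 h5
    · have := hlo (i - D.r) (by omega)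
      rw [show D.r + (i - D.r) = i by omega] at this
      exact dg_eq_of hi this
    · subst h5
      exact dg_eq_of hi hdj
    · rw [if_neg h3, if_neg h5] at hv
      omega
  rw [back_move hi hto, from_four h4]
  split_ifs at hv ⊢ with h3 h5
  · congr 1; omega
  · congr 1; omega

include h4 hj ha hlo hdj in
lemma back_four :
    blk e (back e τ x') D.r = blk e x' D.r + 1 ∧ blk e x' 0 = blk e (back e τ x') 0 := by
  have h1 := effect_four (e := e) (x := back e τ x') (a := addV e τ) h4 hj ha (fun _ => rfl)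
    (back_guard_four h4 hj hlo hdj)
  rwa [back_add] at h1

end Four

section Seven

variable (h7 : fκ τ = 7) (hj : D.fj τ < D.r) (ha : D.fa τ + 1 < D.s)
  (hlo : ∀ i < D.fj τ, dg e x' (0 + i) = 0) (hdj : dg e x' (0 + D.fj τ) = D.fa τ + 1)

include h7 hj hlo hdj in
lemma back_guard_seven : GuardAt e τ (back e τ x') := by
  intro i hi v hv
  rw [guard_seven h7] at hv
  unfold incGuard at hv
  have hto : x' ⟨i, hi⟩ = toV e (D.toN τ i) := by
    rw [to_seven h7]
    split_ifs with h3 h5
    · have := hlo i h3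
      rw [zero_add] at this
      exact dg_eq_of hi this
    · subst h5
      rw [zero_add] at hdj
      exact dg_eq_of hi hdj
    · rw [if_neg (by omega), if_neg (by omega)] at hv
      omega
  rw [back_move hi hto, from_seven h7]
  split_ifs at hv ⊢ with h3 h5 h6 h8 h9 <;> first | omega | (congr 1; omega)

include h7 hj ha hlo hdj in
lemma back_seven :
    blk e x' 0 = blk e (back e τ x') 0 + 1 ∧ blk e x' D.r = blk e (back e τ x') D.r := by
  have h1 := effect_seven (e := e) (x := back e τ x') (a := addV e τ) h7 hj ha (fun _ => rfl)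
    (back_guard_seven h7 hj hlo hdj)
  rwa [back_add] at h1

end Seven

/-- A rule that does not move registers. -/
lemma der_rule_still (hτ : τ < D.nR) (h : fκ τ ≠ 2) (h' : fκ τ ≠ 4) (h'' : fκ τ ≠ 7)
    (h''' : fκ τ ≠ 9) (hG : GuardAt e τ x) (H₁ : ∀ q, D.prem₁N τ = q + 1 → Der e q x)
    (H₂ : ∀ q, D.prem₂N τ = q + 1 → Der e q x) : Der e (D.conclN τ) x := by
  refine der_rule hτ (fun j => ?_) hG H₁ H₂
  rw [toN_zero h h' h'', fromN_zero h h' h'' h''']
  simp

/-! ## The facts of one row -/

variable {c : ℕ → ℕ → ℕ} {t : ℕ}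

lemma der_left (hc : IsTableau D c)
    (hC : ∀ x : Fin (2 * D.r) → V, blk e x 0 = t → Der e (stC (c t (blk e x D.r))) x)
    (x : Fin (2 * D.r) → V) (hx : blk e x 0 = t) : Der e (D.stL (lft D c t (blk e x D.r))) x := by
  have hs := hc.hs
  have hr := hc.hr
  have hS := D.S_pos
  have hSlt : ∀ t p, c t p < D.S := fun t p => lt_trans (hc.lt t p) D.sent_lt_S
  by_cases hp : blk e x D.r = 0
  · obtain ⟨τ, hτ, hk, -, -, -, -, -⟩ := exists_rule (D := D) (κ := 3) (s₁ := 0) (s₂ := 0) (s₃ := 0)
      (j := 0) (a := 0) (by norm_num) hS hS hS (by omega) (by omega)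
    have hcon : D.conclN τ = D.stL D.sent := by simp [conclN, hk]
    have hz := digit_eq_zero_of_digVal_eq_zero (by omega) hp
    have h1 : Der e (D.conclN τ) x := by
      refine der_rule_still hτ (by omega) (by omega) (by omega) (by omega) ?_ ?_ ?_
      · intro i hi v hv
        have hg : D.guardN τ i = (if D.r ≤ i ∧ i < 2 * D.r then 1 else 0) := by simp [guardN, hk]
        rw [hg] at hv
        split_ifs at hv with h3
        have h4 := hz (i - D.r) (by omega)
        simp only [show D.r + (i - D.r) = i by omega] at h4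
        have : v = 0 := by omega
        rw [this]
        exact dg_eq_of hi h4
      · intro q hq
        simp [prem₁N, off_other (D := D) (τ := τ) (by simp [hk]), hk] at hq
      · intro q hq
        simp [prem₂N, hk] at hq
    rw [hcon] at h1
    rw [hp]
    simpa [lft] using h1
  · obtain ⟨j, hj, hlo, hne⟩ := exists_least_ne_zero hp
    have hlt := dg_lt (e := e) hs x (D.r + j)
    obtain ⟨a, ha⟩ : ∃ a, dg e x (D.r + j) = a + 1 := ⟨dg e x (D.r + j) - 1, by omega⟩
    obtain ⟨τ, hτ, hk, h1, -, -, h4, h5⟩ := exists_rule (D := D) (κ := 2)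
      (s₁ := c t (blk e x D.r - 1)) (s₂ := 0) (s₃ := 0) (j := j) (a := a) (by norm_num) (hSlt _ _)
      hS hS (by omega) (by omega)
    have hoff : D.off τ = false := (off_two_iff hk).2 ⟨by omega, by omega⟩
    obtain ⟨h6, h7⟩ := back_two (e := e) (x' := x) hk (by omega) (by omega)
      (by rw [h4]; exact hlo) (by rw [h4, h5]; exact ha)
    have hcon : D.conclN τ = D.stL (D.fs₁ τ) := by simp [conclN, hk]
    have h8 : Der e (D.conclN τ) x := by
      refine der_rule hτ (fun j => ?_) (back_guard_two hk (by omega)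
        (by rw [h4]; exact hlo) (by rw [h4, h5]; exact ha) (by omega)) ?_ ?_
      · have := congrFun (back_add (e := e) (τ := τ) (x' := x)) j
        exact this
      · intro q hq
        have h9 : D.prem₁N τ = stC (D.fs₁ τ) + 1 := by simp [prem₁N, hoff, hk]
        have h10 : q = c t (blk e x D.r - 1) := by
          rw [h9, h1] at hq
          unfold stC at hq
          omega
        rw [h10]
        have h11 := hC (back e τ x) (by omega)
        rwa [show blk e (back e τ x) D.r = blk e x D.r - 1 by omega] at h11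
      · intro q hq
        simp [prem₂N, hk] at hq
    rw [hcon, h1] at h8
    simpa [lft, hp] using h8

lemma der_right (hc : IsTableau D c) (htlt : t < D.s ^ D.r)
    (hC : ∀ x : Fin (2 * D.r) → V, blk e x 0 = t → Der e (stC (c t (blk e x D.r))) x)
    (x : Fin (2 * D.r) → V) (hx : blk e x 0 = t) : Der e (D.stR (c t (blk e x D.r + 1))) x := by
  have hs := hc.hs
  have hr := hc.hr
  have hS := D.S_pos
  have hSlt : ∀ t p, c t p < D.S := fun t p => lt_trans (hc.lt t p) D.sent_lt_S
  by_cases hp : blk e x D.r + 1 = D.s ^ D.r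
  · obtain ⟨τ, hτ, hk, -, -, -, -, -⟩ := exists_rule (D := D) (κ := 5) (s₁ := 0) (s₂ := 0) (s₃ := 0)
      (j := 0) (a := 0) (by norm_num) hS hS hS (by omega) (by omega)
    have hcon : D.conclN τ = D.stR 0 := by simp [conclN, hk]
    have hz := digit_eq_pred_of_max (by omega) (fun i _ => dg_lt hs x _) hp
    have h1 : Der e (D.conclN τ) x := by
      refine der_rule_still hτ (by omega) (by omega) (by omega) (by omega) ?_ ?_ ?_
      · intro i hi v hv
        have hg : D.guardN τ i = (if D.r ≤ i ∧ i < 2 * D.r then D.s else 0) := by simp [guardN, hk]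
        rw [hg] at hv
        split_ifs at hv with h3
        have h4 := hz (i - D.r) (by omega)
        simp only [show D.r + (i - D.r) = i by omega] at h4
        have : v = D.s - 1 := by omega
        rw [this]
        exact dg_eq_of hi h4
      · intro q hq
        simp [prem₁N, off_other (D := D) (τ := τ) (by simp [hk]), hk] at hq
      · intro q hq
        simp [prem₂N, hk] at hq
    rw [hcon] at h1
    rw [hp, hc.edge _ htlt]
    exact h1
  · obtain ⟨j, hj, hlo, hne⟩ := exists_least_ne_pred (by omega) hp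
    have hlt := dg_lt (e := e) hs x (D.r + j)
    obtain ⟨τ, hτ, hk, h1, -, -, h4, h5⟩ := exists_rule (D := D) (κ := 4)
      (s₁ := c t (blk e x D.r + 1)) (s₂ := 0) (s₃ := 0) (j := j) (a := dg e x (D.r + j))
      (by norm_num) (hSlt _ _) hS hS (by omega) (by omega)
    have hoff : D.off τ = false := (off_four_iff hk).2 ⟨by omega, by omega⟩
    obtain ⟨h6, h7⟩ := back_four (e := e) (x' := x) hk (by omega) (by omega)
      (by rw [h4]; exact hlo) (by rw [h4, h5])
    have hcon : D.conclN τ = D.stR (D.fs₁ τ) := by simp [conclN, hk]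
    have h8 : Der e (D.conclN τ) x := by
      refine der_rule hτ (fun j => ?_) (back_guard_four hk (by omega)
        (by rw [h4]; exact hlo) (by rw [h4, h5])) ?_ ?_
      · have := congrFun (back_add (e := e) (τ := τ) (x' := x)) j
        exact this
      · intro q hq
        have h9 : D.prem₁N τ = stC (D.fs₁ τ) + 1 := by simp [prem₁N, hoff, hk]
        have h10 : q = c t (blk e x D.r + 1) := by
          rw [h9, h1] at hq
          unfold stC at hq
          omega
        rw [h10]
        have h11 := hC (back e τ x) (by omega)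
        rwa [h6] at h11
      · intro q hq
        simp [prem₂N, hk] at hq
    rw [hcon, h1] at h8
    exact h8

lemma der_pair (hc : IsTableau D c)
    (x : Fin (2 * D.r) → V) {σ₁ σ₂ : ℕ} (h₁ : σ₁ < D.S) (h₂ : σ₂ < D.S) (hL : Der e (D.stL σ₁) x)
    (hC : Der e (stC σ₂) x) : Der e (D.stP σ₁ σ₂) x := by
  have hs := hc.hs
  have hr := hc.hr
  have hS := D.S_pos
  obtain ⟨τ, hτ, hk, h3, h4, -, -, -⟩ := exists_rule (D := D) (κ := 6) (s₁ := σ₁) (s₂ := σ₂) (s₃ := 0)
    (j := 0) (a := 0) (by norm_num) h₁ h₂ hS (by omega) (by omega)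
  have hcon : D.conclN τ = D.stP σ₁ σ₂ := by simp [conclN, hk, h3, h4]
  rw [← hcon]
  refine der_rule_still hτ (by omega) (by omega) (by omega) (by omega) ?_ ?_ ?_
  · intro i hi v hv
    simp [guardN, hk] at hv
  · intro q hq
    have h5 : D.prem₁N τ = D.stL σ₁ + 1 := by
      simp [prem₁N, off_other (D := D) (τ := τ) (by simp [hk]), hk, h3]
    rw [h5] at hq
    have : q = D.stL σ₁ := by omega
    rw [this]
    exact hL
  · intro q hq
    have h5 : D.prem₂N τ = stC σ₂ + 1 := by simp [prem₂N, hk, h4]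
    rw [h5] at hq
    have : q = stC σ₂ := by omega
    rw [this]
    exact hC

/-- The next row from the current row. -/
lemma der_next (hc : IsTableau D c) (hnext : t + 1 < D.s ^ D.r)
    (hC : ∀ x : Fin (2 * D.r) → V, blk e x 0 = t → Der e (stC (c t (blk e x D.r))) x)
    (x' : Fin (2 * D.r) → V) (hx : blk e x' 0 = t + 1) :
    Der e (stC (c (t + 1) (blk e x' D.r))) x' := by
  have hs := hc.hs
  have hr := hc.hr
  have hS := D.S_pos
  have hSlt : ∀ t p, c t p < D.S := fun t p => lt_trans (hc.lt t p) D.sent_lt_S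
  have hcl : ∀ σ, σ < D.S → D.clampS σ = σ := fun σ h => by simp [clampS, h]
  have hlft : ∀ t p, lft D c t p < D.S := fun t p => by
    unfold lft
    split_ifs
    · exact D.sent_lt_S
    · exact hSlt _ _
  set p := blk e x' D.r with hp
  obtain ⟨j, hj, hlo, hne⟩ := exists_least_ne_zero (s := D.s) (d := fun i => dg e x' (0 + i))
    (n := D.r) (by rw [show digVal D.s (fun i => dg e x' (0 + i)) D.r = blk e x' 0 from rfl]; omega)
  have hlt := dg_lt (e := e) hs x' (0 + j)
  obtain ⟨a, ha⟩ : ∃ a, dg e x' (0 + j) = a + 1 := ⟨dg e x' (0 + j) - 1, by omega⟩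
  obtain ⟨τ, hτ, hk, h1, h2, h3, h4, h5⟩ := exists_rule (D := D) (κ := 7)
    (s₁ := lft D c t p) (s₂ := c t p) (s₃ := c t (p + 1)) (j := j) (a := a) (by norm_num) (hlft _ _)
    (hSlt _ _) (hSlt _ _) (by omega) (by omega)
  have hoff : D.off τ = false := (off_seven_iff hk).2 ⟨by omega, by omega⟩
  obtain ⟨h6, h7⟩ := back_seven (e := e) (x' := x') hk (by omega) (by omega)
    (by rw [h4]; exact hlo) (by rw [h4, h5]; exact ha)
  have hcon : D.conclN τ = stC (D.clampS (D.next (D.fs₁ τ) (D.fs₂ τ) (D.fs₃ τ))) := by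
    simp [conclN, hk]
  have hnx : D.next (D.fs₁ τ) (D.fs₂ τ) (D.fs₃ τ) = c (t + 1) p := by
    rw [h1, h2, h3]
    exact hc.step t p
  have h8 : Der e (D.conclN τ) x' := by
    have hb0 : blk e (back e τ x') 0 = t := by omega
    have hbr : blk e (back e τ x') D.r = p := by omega
    have hC' := hC _ hb0
    rw [hbr] at hC'
    have hL := der_left hc hC _ hb0
    rw [hbr] at hL
    have hR := der_right hc (by omega) hC _ hb0
    rw [hbr] at hR
    refine der_rule hτ (fun j => ?_) (back_guard_seven hk (by omega)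
      (by rw [h4]; exact hlo) (by rw [h4, h5]; exact ha)) ?_ ?_
    · have := congrFun (back_add (e := e) (τ := τ) (x' := x')) j
      exact this
    · intro q hq
      have h9 : D.prem₁N τ = D.stP (D.fs₁ τ) (D.fs₂ τ) + 1 := by simp [prem₁N, hoff, hk]
      rw [h9, h1, h2] at hq
      have : q = D.stP (lft D c t p) (c t p) := by omega
      rw [this]
      exact der_pair hc _ (hlft _ _) (hSlt _ _) hL hC'
    · intro q hq
      have h9 : D.prem₂N τ = D.stR (D.fs₃ τ) + 1 := by simp [prem₂N, hk]
      rw [h9, h3] at hq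
      have : q = D.stR (c t (p + 1)) := by omega
      rw [this]
      exact hR
  rw [hcon, hnx, hcl _ (hSlt _ _)] at h8
  exact h8

/-- The initial row. -/
lemma der_init (hc : IsTableau D c) (x : Fin (2 * D.r) → V) (hx : blk e x 0 = 0) :
    Der e (stC (c 0 (blk e x D.r))) x := by
  have hs := hc.hs
  have hr := hc.hr
  have hS := D.S_pos
  have hSlt : ∀ t p, c t p < D.S := fun t p => lt_trans (hc.lt t p) D.sent_lt_S
  have hcl : ∀ σ, σ < D.S → D.clampS σ = σ := fun σ h => by simp [clampS, h]
  have hz := digit_eq_zero_of_digVal_eq_zero (by omega) hx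
  simp only [zero_add] at hz
  by_cases hhi : ∀ i, 1 ≤ i → i < D.r → dg e x (D.r + i) = 0
  · have hP : blk e x D.r = dg e x (D.r + 0) := digVal_eq_head hr hhi
    have hlt := dg_lt (e := e) hs x (D.r + 0)
    rw [add_zero] at hP hlt
    obtain ⟨τ, hτ, hk, -, -, -, -, h5⟩ := exists_rule (D := D) (κ := 0) (s₁ := 0) (s₂ := 0) (s₃ := 0)
      (j := 0) (a := dg e x D.r) (by norm_num) hS hS hS (by omega) hlt
    have hcon : D.conclN τ = stC (D.clampS (D.initSym (D.fa τ))) := by simp [conclN, hk]
    have h1 : Der e (D.conclN τ) x := by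
      refine der_rule_still hτ (by omega) (by omega) (by omega) (by omega) ?_ ?_ ?_
      · intro i hi v hv
        have hg : D.guardN τ i =
            (if i = D.r then D.fa τ + 1 else if i < 2 * D.r then 1 else 0) := by
          simp [guardN, hk]
        rw [hg, h5] at hv
        split_ifs at hv with h3 h4
        · subst h3
          have : v = dg e x D.r := by omega
          rw [this]
          exact dg_eq_of hi rfl
        · have : v = 0 := by omega
          rw [this]
          by_cases h6 : i < D.r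
          · exact dg_eq_of hi (hz i h6)
          · have h7 := hhi (i - D.r) (by omega) (by omega)
            rw [show D.r + (i - D.r) = i by omega] at h7
            exact dg_eq_of hi h7
      · intro q hq
        simp [prem₁N, off_other (D := D) (τ := τ) (by simp [hk]), hk] at hq
      · intro q hq
        simp [prem₂N, hk] at hq
    rw [hcon, h5, ← hc.init _ hlt, hcl _ (hSlt _ _), ← hP] at h1
    exact h1
  · push Not at hhi
    obtain ⟨j, hj, hj', hne⟩ := hhi
    have hlt := dg_lt (e := e) hs x (D.r + j)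
    obtain ⟨τ, hτ, hk, -, -, -, h4, h5⟩ := exists_rule (D := D) (κ := 1) (s₁ := 0) (s₂ := 0) (s₃ := 0)
      (j := j) (a := dg e x (D.r + j)) (by norm_num) hS hS hS (by omega) hlt
    have hoff : D.off τ = false := (off_one_iff hk).2 ⟨by omega, by omega, by rw [h5]; exact hne⟩
    have hcon : D.conclN τ = stC 0 := by simp [conclN, hk]
    have hP : D.s ≤ blk e x D.r := by
      have h5 : D.s ^ j ≤ blk e x D.r :=
        pow_le_digVal (d := fun i => dg e x (D.r + i)) hj' hne
      have h6 : D.s ^ 1 ≤ D.s ^ j := Nat.pow_le_pow_right (by omega) hj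
      rw [pow_one] at h6
      omega
    have h1 : Der e (D.conclN τ) x := by
      refine der_rule_still hτ (by omega) (by omega) (by omega) (by omega) ?_ ?_ ?_
      · intro i hi v hv
        have hg : D.guardN τ i =
            (if i < D.r then 1 else if i = D.r + D.fj τ then D.fa τ + 1 else 0) := by
          simp [guardN, hk]
        rw [hg, h4, h5] at hv
        split_ifs at hv with h3 h6
        · have : v = 0 := by omega
          rw [this]
          exact dg_eq_of hi (hz i h3)
        · subst h6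
          have : v = dg e x (D.r + j) := by omega
          rw [this]
          exact dg_eq_of hi rfl
      · intro q hq
        simp [prem₁N, hoff, hk] at hq
      · intro q hq
        simp [prem₂N, hk] at hq
    rw [hcon] at h1
    rw [hc.blank _ hP]
    exact h1

/-- Every cell is derivable. -/
theorem der_cell (hc : IsTableau D c) (t : ℕ) (ht : t < D.s ^ D.r) (x : Fin (2 * D.r) → V)
    (hx : blk e x 0 = t) : Der e (stC (c t (blk e x D.r))) x := by
  induction t generalizing x with
  | zero => exact der_init hc x hx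
  | succ t ih => exact der_next hc ht (fun y hy => ih (by omega) y hy) x hx

/-! ## Acceptance -/

lemma digVal_digits (s n k : ℕ) : digVal s (fun i => n / s ^ i % s) k = n % s ^ k := by
  induction k with
  | zero => simp [digVal_zero, Nat.mod_one]
  | succ k ih =>
    rw [digVal_succ, ih, Nat.mod_pow_succ]
    ring

/-- Every pair of numbers is written by a register vector. -/
lemma exists_regs (hs : 2 ≤ D.s) (hr : 1 ≤ D.r) {t p : ℕ} (ht : t < D.s ^ D.r)
    (hp : p < D.s ^ D.r) (e : V ≃ Fin D.s) :
    ∃ x : Fin (2 * D.r) → V, blk e x 0 = t ∧ blk e x D.r = p := by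
  let f : ℕ → ℕ := fun j => if j < D.r then t / D.s ^ j % D.s else p / D.s ^ (j - D.r) % D.s
  have hf : ∀ j, f j < D.s := fun j => by
    show (if j < D.r then t / D.s ^ j % D.s else p / D.s ^ (j - D.r) % D.s) < D.s
    split_ifs <;> exact Nat.mod_lt _ (by omega)
  refine ⟨fun j => toV e (f j), ?_, ?_⟩
  · have h1 : ∀ i < D.r, dg e (fun j : Fin (2 * D.r) => toV e (f j)) (0 + i) = t / D.s ^ i % D.s := by
      intro i hi
      rw [dg_of_lt _ (by omega), toV_val (hf _)]
      simp [f, hi]
    rw [show blk e (fun j : Fin (2 * D.r) => toV e (f j)) 0 = digVal D.s (fun i => t / D.s ^ i % D.s) D.r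
      from digVal_congr h1, digVal_digits, Nat.mod_eq_of_lt ht]
  · have h1 : ∀ i < D.r, dg e (fun j : Fin (2 * D.r) => toV e (f j)) (D.r + i) = p / D.s ^ i % D.s := by
      intro i hi
      rw [dg_of_lt _ (by omega), toV_val (hf _)]
      simp [f]
    rw [show blk e (fun j : Fin (2 * D.r) => toV e (f j)) D.r = digVal D.s (fun i => p / D.s ^ i % D.s) D.r
      from digVal_congr h1, digVal_digits, Nat.mod_eq_of_lt hp]

/-- Rule 9 clears a register. -/
lemma der_clear (hc : IsTableau D c) {x : Fin (2 * D.r) → V} (h : Der e D.stA x) (j : ℕ)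
    (hj : j < 2 * D.r) :
    Der e D.stA (fun i => if i.val = j then toV e 0 else x i) := by
  have hs := hc.hs
  have hr := hc.hr
  have hS := D.S_pos
  have hlt := dg_lt (e := e) hs x j
  obtain ⟨τ, hτ, hk, -, -, -, h4, h5⟩ := exists_rule (D := D) (κ := 9) (s₁ := 0) (s₂ := 0) (s₃ := 0)
    (j := j) (a := dg e x j) (by norm_num) hS hS hS hj hlt
  have hcon : D.conclN τ = D.stA := by simp [conclN, hk]
  rw [← hcon]
  refine der_rule (x := x) hτ ?_ ?_ ?_ ?_
  · intro i
    have hto : D.toN τ i = 0 := toN_zero (by omega) (by omega) (by omega)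
    have hfrom : D.fromN τ i = if i.val = j then dg e x j else 0 := by
      simp [fromN, hk, h4, h5]
    rw [hto, hfrom]
    by_cases hi : i.val = j
    · subst hi
      simp only [if_true]
      rw [toV_dg x i.isLt]
      simp
    · simp [hi]
  · intro i hi v hv
    have hg : D.guardN τ i = if i = j then dg e x j + 1 else 0 := by
      simp [guardN, hk, h4, h5]
    rw [hg] at hv
    split_ifs at hv with h6
    subst h6
    have : v = dg e x i := by omega
    rw [this]
    exact dg_eq_of hi rfl
  · intro q hq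
    have h5 : D.prem₁N τ = D.stA + 1 := by
      simp [prem₁N, off_other (D := D) (τ := τ) (by simp [hk]), hk]
    rw [h5] at hq
    have : q = D.stA := by omega
    rw [this]
    exact h
  · intro q hq
    simp [prem₂N, hk] at hq

lemma der_clear_all (hc : IsTableau D c) {x : Fin (2 * D.r) → V} (h : Der e D.stA x) (k : ℕ)
    (hk : k ≤ 2 * D.r) : Der e D.stA (fun i => if i.val < k then toV e 0 else x i) := by
  induction k with
  | zero => simpa using h
  | succ k ih =>
    have h1 := der_clear hc (ih (by omega)) k (by omega)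
    convert h1 using 2 with i
    by_cases h2 : i.val = k
    · simp [h2]
    · by_cases h3 : i.val < k
      · simp [h2, h3, show i.val < k + 1 by omega]
      · simp [h2, h3, show ¬ i.val < k + 1 by omega]

/-- An accepting cell gives the query. -/
theorem der_query (hc : IsTableau D c) {t p : ℕ} (ht : t < D.s ^ D.r) (hp : p < D.s ^ D.r)
    (hacc : D.symH (c t p) = 2) : (D.prog e).Derives D.stAF (fun _ => toV e 0) := by
  have hs := hc.hs
  have hr := hc.hr
  have hS := D.S_pos
  have hSlt : ∀ t p, c t p < D.S := fun t p => lt_trans (hc.lt t p) D.sent_lt_S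
  obtain ⟨x, hx, hx'⟩ := exists_regs hs hr ht hp e
  obtain ⟨τ, hτ, hk, h1, -, -, -, -⟩ := exists_rule (D := D) (κ := 8) (s₁ := c t p) (s₂ := 0) (s₃ := 0)
    (j := 0) (a := 0) (by norm_num) (hSlt _ _) hS hS (by omega) (by omega)
  have hoff : D.off τ = false := (off_eight_iff hk).2 (by rw [h1]; exact hacc)
  have hcon : D.conclN τ = D.stA := by simp [conclN, hk]
  have h2 : Der e (D.conclN τ) x := by
    refine der_rule_still hτ (by omega) (by omega) (by omega) (by omega) ?_ ?_ ?_
    · intro i hi v hv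
      simp [guardN, hk] at hv
    · intro q hq
      have h5 : D.prem₁N τ = stC (D.fs₁ τ) + 1 := by simp [prem₁N, hoff, hk]
      rw [h5, h1] at hq
      have h6 : q = c t p := by unfold stC at hq; omega
      rw [h6]
      have h7 := der_cell hc t ht x hx
      rwa [hx'] at h7
    · intro q hq
      simp [prem₂N, hk] at hq
  rw [hcon] at h2
  obtain ⟨h3, h4⟩ := der_clear_all hc h2 (2 * D.r) le_rfl
  have h5 : (fun i : Fin (2 * D.r) => if i.val < 2 * D.r then toV e 0 else x i) =
      fun _ => toV e 0 := by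
    funext i
    rw [if_pos i.isLt]
  rw [h5] at h4
  exact h4

end Vale.Agent.Lib.P310.Tab.TD
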