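import Mathlib

/-!
# Little-endian digit expansions with a fixed number of digits
-/

namespace Vale.Agent.Lib.P310.Tab

/-- The value of the first `n` digits of `d` in base `s`. -/
def digVal (s : ℕ) (d : ℕ → ℕ) (n : ℕ) : ℕ := ∑ i ∈ Finset.range n, d i * s ^ i

variable {s : ℕ} {d d' : ℕ → ℕ} {n : ℕ}

lemma digVal_zero : digVal s d 0 = 0 := by simp [digVal]

lemma digVal_succ : digVal s d (n + 1) = digVal s d n + d n * s ^ n := by
  simp [digVal, Finset.sum_range_succ]

lemma digVal_lt (h : ∀ i < n, d i < s) : digVal s d n < s ^ n := by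
  induction n with
  | zero => simp [digVal_zero]
  | succ n ih =>
    have h1 := ih (fun i hi => h i (by omega))
    have h2 := h n (by omega)
    rw [digVal_succ, pow_succ]
    have : (d n + 1) * s ^ n ≤ s * s ^ n := Nat.mul_le_mul_right _ (by omega)
    nlinarith

lemma digVal_congr (h : ∀ i < n, d i = d' i) : digVal s d n = digVal s d' n := by
  apply Finset.sum_congr rfl
  intro i hi
  rw [h i (Finset.mem_range.mp hi)]

lemma digVal_all_pred (hs : 1 ≤ s) (h : ∀ i < n, d i = s - 1) : digVal s d n + 1 = s ^ n := by
  induction n with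
  | zero => simp [digVal_zero]
  | succ n ih =>
    have h1 := ih (fun i hi => h i (by omega))
    rw [digVal_succ, h n (by omega), pow_succ]
    obtain ⟨t, rfl⟩ : ∃ t, s = t + 1 := ⟨s - 1, by omega⟩
    simp only [Nat.add_sub_cancel]
    nlinarith

lemma digVal_all_zero (h : ∀ i < n, d i = 0) : digVal s d n = 0 := by
  apply Finset.sum_eq_zero
  intro i hi
  rw [h i (Finset.mem_range.mp hi), zero_mul]

/-- Adding one to a number: the low digits `s - 1` become `0`, the next digit grows by one. -/
lemma digVal_inc (hs : 1 ≤ s) {j a : ℕ} (hj : j < n) (hlo : ∀ i < j, d i = s - 1) (hdj : d j = a)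
    (hlo' : ∀ i < j, d' i = 0) (hdj' : d' j = a + 1) (hhi : ∀ i, j < i → i < n → d' i = d i) :
    digVal s d' n = digVal s d n + 1 := by
  induction n with
  | zero => omega
  | succ n ih =>
    by_cases hjn : j = n
    · subst hjn
      have h1 := digVal_all_pred hs hlo
      have h2 : digVal s d' j = 0 := digVal_all_zero hlo'
      rw [digVal_succ, digVal_succ, h2, hdj, hdj', add_mul, one_mul]
      omega
    · have h1 := ih (by omega) (fun i hi hi' => hhi i hi (by omega))
      rw [digVal_succ, digVal_succ, h1, hhi n (by omega) (by omega)]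
      omega

lemma digit_eq_zero_of_digVal_eq_zero (hs : 1 ≤ s) (h : digVal s d n = 0) : ∀ i < n, d i = 0 := by
  intro i hi
  have h1 := (Finset.sum_eq_zero_iff.mp h) i (Finset.mem_range.mpr hi)
  rcases Nat.mul_eq_zero.mp h1 with h2 | h2
  · exact h2
  · exact absurd h2 (by positivity)

/-- The value is at least the weight of a nonzero digit. -/
lemma pow_le_digVal {j : ℕ} (hj : j < n) (hd : d j ≠ 0) : s ^ j ≤ digVal s d n := by
  have h1 : d j * s ^ j ≤ digVal s d n :=
    Finset.single_le_sum (f := fun i => d i * s ^ i) (fun _ _ => Nat.zero_le _)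
      (Finset.mem_range.mpr hj)
  calc s ^ j ≤ d j * s ^ j := Nat.le_mul_of_pos_left _ (Nat.pos_of_ne_zero hd)
    _ ≤ _ := h1

/-- If the value is `s ^ n - 1` all digits are `s - 1`. -/
lemma digit_eq_pred_of_max (hs : 1 ≤ s) (hd : ∀ i < n, d i < s) (h : digVal s d n + 1 = s ^ n) :
    ∀ i < n, d i = s - 1 := by
  induction n with
  | zero => intro i hi; omega
  | succ n ih =>
    have h1 : digVal s d n < s ^ n := digVal_lt (fun i hi => hd i (by omega))
    have h2 := hd n (by omega)
    rw [digVal_succ, pow_succ] at h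
    have h3 : d n = s - 1 := by
      by_contra hne
      have : d n + 1 < s := by omega
      have h4 : (d n + 2) * s ^ n ≤ s * s ^ n := Nat.mul_le_mul_right _ (by omega)
      have h5 : 0 < s ^ n := by positivity
      nlinarith
    have h6 : digVal s d n + 1 = s ^ n := by
      rw [h3] at h
      obtain ⟨t, rfl⟩ : ∃ t, s = t + 1 := ⟨s - 1, by omega⟩
      simp only [Nat.add_sub_cancel] at h
      nlinarith
    intro i hi
    by_cases hin : i = n
    · rw [hin, h3]
    · exact ih (fun i hi => hd i (by omega)) h6 i (by omega)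

/-- The least digit that is not `s - 1`. -/
lemma exists_least_ne_pred (hs : 1 ≤ s) (h : digVal s d n + 1 ≠ s ^ n) :
    ∃ j < n, (∀ i < j, d i = s - 1) ∧ d j ≠ s - 1 := by
  classical
  have hex : ∃ j, j < n ∧ d j ≠ s - 1 := by
    by_contra hne
    push Not at hne
    exact h (digVal_all_pred hs hne)
  refine ⟨Nat.find hex, (Nat.find_spec hex).1, ?_, (Nat.find_spec hex).2⟩
  intro i hi
  have := Nat.find_min hex hi
  push Not at this
  exact this (lt_trans hi (Nat.find_spec hex).1)

/-- The least digit that is not `0`. -/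
lemma exists_least_ne_zero (h : digVal s d n ≠ 0) :
    ∃ j < n, (∀ i < j, d i = 0) ∧ d j ≠ 0 := by
  classical
  have hex : ∃ j, j < n ∧ d j ≠ 0 := by
    by_contra hne
    push Not at hne
    exact h (digVal_all_zero hne)
  refine ⟨Nat.find hex, (Nat.find_spec hex).1, ?_, (Nat.find_spec hex).2⟩
  intro i hi
  have := Nat.find_min hex hi
  push Not at this
  exact this (lt_trans hi (Nat.find_spec hex).1)

/-- If all digits but the lowest vanish, the value is the lowest digit. -/
lemma digVal_eq_head (hn : 1 ≤ n) (h : ∀ i, 1 ≤ i → i < n → d i = 0) : digVal s d n = d 0 := by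
  induction n with
  | zero => omega
  | succ n ih =>
    by_cases h0 : n = 0
    · subst h0; simp [digVal]
    · rw [digVal_succ, h n (by omega) (by omega), zero_mul, add_zero]
      exact ih (by omega) (fun i hi hi' => h i hi (by omega))

end Vale.Agent.Lib.P310.Tab
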