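import Vale.Agent.Lib.P310.Tab.Regs

/-!
# The fields of a rule of a given kind, and its effect on the two numbers
-/

namespace Vale.Agent.Lib.P310.Tab.TD

variable {D : TD} {τ i : ℕ}

/-! ## Switched off rules -/

lemma off_one_iff (h : fκ τ = 1) :
    D.off τ = false ↔ D.fj τ < D.r ∧ 1 ≤ D.fj τ ∧ D.fa τ ≠ 0 := by
  simp [off, h]
  tauto

lemma off_two_iff (h : fκ τ = 2) : D.off τ = false ↔ D.fj τ < D.r ∧ D.fa τ + 1 < D.s := by
  simp [off, h]

lemma off_four_iff (h : fκ τ = 4) : D.off τ = false ↔ D.fj τ < D.r ∧ D.fa τ + 1 < D.s := by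
  simp [off, h]

lemma off_seven_iff (h : fκ τ = 7) : D.off τ = false ↔ D.fj τ < D.r ∧ D.fa τ + 1 < D.s := by
  simp [off, h]

lemma off_eight_iff (h : fκ τ = 8) : D.off τ = false ↔ D.symH (D.fs₁ τ) = 2 := by
  simp [off, h]

lemma off_other (h : fκ τ = 0 ∨ fκ τ = 3 ∨ fκ τ = 5 ∨ fκ τ = 6 ∨ fκ τ = 9) : D.off τ = false := by
  rcases h with h | h | h | h | h <;> simp [off, h]

/-! ## Translations -/

lemma fromN_zero (h : fκ τ ≠ 2) (h' : fκ τ ≠ 4) (h'' : fκ τ ≠ 7) (h''' : fκ τ ≠ 9) :
    D.fromN τ i = 0 := by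
  simp [fromN, h, h', h'', h''']

lemma toN_zero (h : fκ τ ≠ 2) (h' : fκ τ ≠ 4) (h'' : fκ τ ≠ 7) : D.toN τ i = 0 := by
  simp [toN, h, h', h'']

/-- The translation of a rule at a register. -/
abbrev IsAdd {V : Type} [AddCommGroup V] (e : V ≃ Fin D.s) (τ : ℕ) (a : Fin (2 * D.r) → V) : Prop :=
  ∀ j : Fin (2 * D.r), a j = toV e (D.toN τ j) - toV e (D.fromN τ j)

/-- The guard of a rule at a register vector. -/
abbrev GuardAt {V : Type} [AddCommGroup V] (e : V ≃ Fin D.s) (τ : ℕ) (x : Fin (2 * D.r) → V) :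
    Prop :=
  ∀ (i : ℕ) (hi : i < 2 * D.r) (v : ℕ), D.guardN τ i = v + 1 → x ⟨i, hi⟩ = toV e v

variable {V : Type} [AddCommGroup V] {e : V ≃ Fin D.s} {x x' : Fin (2 * D.r) → V}

lemma add_eq_zero {a : Fin (2 * D.r) → V} (ha : IsAdd e τ a) (h : fκ τ ≠ 2) (h' : fκ τ ≠ 4)
    (h'' : fκ τ ≠ 7) (h''' : fκ τ ≠ 9) (x : Fin (2 * D.r) → V) : (fun j => x j + a j) = x := by
  funext j
  rw [ha, toN_zero h h' h'', fromN_zero h h' h'' h''']
  simp

/-- Numbers from digits. -/
lemma blk_inc (hs : 1 ≤ D.s) {b j a : ℕ} (hj : j < D.r) (hlo : ∀ i < j, dg e x (b + i) = D.s - 1)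
    (hdj : dg e x (b + j) = a) (hlo' : ∀ i < j, dg e x' (b + i) = 0)
    (hdj' : dg e x' (b + j) = a + 1)
    (hhi : ∀ i, j < i → i < D.r → dg e x' (b + i) = dg e x (b + i)) :
    blk e x' b = blk e x b + 1 :=
  digVal_inc hs hj hlo hdj hlo' hdj' hhi

lemma blk_congr {b : ℕ} (h : ∀ i < D.r, dg e x' (b + i) = dg e x (b + i)) :
    blk e x' b = blk e x b :=
  digVal_congr h

/-! ## The increment of the position -/

section Two

variable (h2 : fκ τ = 2) (hj : D.fj τ < D.r) (ha : D.fa τ + 1 < D.s)
  {a : Fin (2 * D.r) → V} (hadd : IsAdd e τ a) (hG : GuardAt e τ x)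

include h2 in
lemma guard_two : D.guardN τ i = D.incGuard D.r (D.fj τ) (D.fa τ) i := by
  simp [guardN, h2]

include h2 in
lemma from_two : D.fromN τ i = if i < D.r + D.fj τ ∧ D.r ≤ i then D.s - 1
    else if i = D.r + D.fj τ then D.fa τ else 0 := by
  simp [fromN, h2]

include h2 in
lemma to_two : D.toN τ i = if i < D.r + D.fj τ ∧ D.r ≤ i then 0
    else if i = D.r + D.fj τ then D.fa τ + 1 else 0 := by
  simp [toN, h2]

include h2 hj ha hadd hG in
lemma effect_two :
    blk e (fun j => x j + a j) D.r = blk e x D.r + 1 ∧ blk e (fun j => x j + a j) 0 = blk e x 0 := by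
  have hlt : ∀ i < D.fj τ, D.r + i < 2 * D.r := fun i hi => by omega
  have hjlt : D.r + D.fj τ < 2 * D.r := by omega
  constructor
  · refine blk_inc (a := D.fa τ) (j := D.fj τ) (by omega) hj ?_ ?_ ?_ ?_ ?_
    · intro i hi
      refine eq_of_dg' (hlt i hi) (by omega) (hG _ (hlt i hi) _ ?_)
      rw [guard_two h2]
      unfold incGuard
      rw [if_pos ⟨by omega, by omega⟩]
      omega
    · refine eq_of_dg' hjlt (by omega) (hG _ hjlt _ ?_)
      rw [guard_two h2]
      unfold incGuard
      rw [if_neg (by omega), if_pos rfl]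
    · intro i hi
      have h3 : x ⟨D.r + i, hlt i hi⟩ = toV e (D.fromN τ (D.r + i)) := by
        rw [from_two h2, if_pos ⟨by omega, by omega⟩]
        refine hG _ (hlt i hi) _ ?_
        rw [guard_two h2]
        unfold incGuard
        rw [if_pos ⟨by omega, by omega⟩]
        omega
      have h4 : D.toN τ (D.r + i) = 0 := by
        rw [to_two h2, if_pos ⟨by omega, by omega⟩]
      rw [dg_add_move x a hadd (hlt i hi) h3 (by omega), h4]
    · have h3 : x ⟨D.r + D.fj τ, hjlt⟩ = toV e (D.fromN τ (D.r + D.fj τ)) := by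
        rw [from_two h2, if_neg (by omega), if_pos rfl]
        refine hG _ hjlt _ ?_
        rw [guard_two h2]
        unfold incGuard
        rw [if_neg (by omega), if_pos rfl]
      have h4 : D.toN τ (D.r + D.fj τ) = D.fa τ + 1 := by
        rw [to_two h2, if_neg (by omega), if_pos rfl]
      rw [dg_add_move x a hadd hjlt h3 (by omega), h4]
    · intro i hi hi'
      refine dg_add_same (τ := τ) x a hadd ?_
      rw [to_two h2, from_two h2, if_neg (by omega), if_neg (by omega), if_neg (by omega),
        if_neg (by omega)]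
  · refine blk_congr fun i hi => ?_
    refine dg_add_same (τ := τ) x a hadd ?_
    rw [to_two h2, from_two h2, if_neg (by omega), if_neg (by omega), if_neg (by omega),
      if_neg (by omega)]

end Two

/-! ## The decrement of the position -/

section Four

variable (h4 : fκ τ = 4) (hj : D.fj τ < D.r) (ha : D.fa τ + 1 < D.s)
  {a : Fin (2 * D.r) → V} (hadd : IsAdd e τ a) (hG : GuardAt e τ x)

include h4 in
lemma guard_four : D.guardN τ i = decGuard D.r (D.fj τ) (D.fa τ) i := by
  simp [guardN, h4]

include h4 in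
lemma from_four : D.fromN τ i = if i < D.r + D.fj τ ∧ D.r ≤ i then 0
    else if i = D.r + D.fj τ then D.fa τ + 1 else 0 := by
  simp [fromN, h4]

include h4 in
lemma to_four : D.toN τ i = if i < D.r + D.fj τ ∧ D.r ≤ i then D.s - 1
    else if i = D.r + D.fj τ then D.fa τ else 0 := by
  simp [toN, h4]

include h4 hj ha hadd hG in
lemma effect_four :
    blk e x D.r = blk e (fun j => x j + a j) D.r + 1 ∧ blk e (fun j => x j + a j) 0 = blk e x 0 := by
  have hlt : ∀ i < D.fj τ, D.r + i < 2 * D.r := fun i hi => by omega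
  have hjlt : D.r + D.fj τ < 2 * D.r := by omega
  constructor
  · refine blk_inc (a := D.fa τ) (j := D.fj τ) (by omega) hj ?_ ?_ ?_ ?_ ?_
    · intro i hi
      have h3 : x ⟨D.r + i, hlt i hi⟩ = toV e (D.fromN τ (D.r + i)) := by
        rw [from_four h4, if_pos ⟨by omega, by omega⟩]
        refine hG _ (hlt i hi) _ ?_
        rw [guard_four h4]
        unfold decGuard
        rw [if_pos ⟨by omega, by omega⟩]
      have h5 : D.toN τ (D.r + i) = D.s - 1 := by
        rw [to_four h4, if_pos ⟨by omega, by omega⟩]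
      rw [dg_add_move x a hadd (hlt i hi) h3 (by omega), h5]
    · have h3 : x ⟨D.r + D.fj τ, hjlt⟩ = toV e (D.fromN τ (D.r + D.fj τ)) := by
        rw [from_four h4, if_neg (by omega), if_pos rfl]
        refine hG _ hjlt _ ?_
        rw [guard_four h4]
        unfold decGuard
        rw [if_neg (by omega), if_pos rfl]
      have h5 : D.toN τ (D.r + D.fj τ) = D.fa τ := by
        rw [to_four h4, if_neg (by omega), if_pos rfl]
      rw [dg_add_move x a hadd hjlt h3 (by omega), h5]
    · intro i hi
      refine eq_of_dg' (hlt i hi) (by omega) (hG _ (hlt i hi) _ ?_)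
      rw [guard_four h4]
      unfold decGuard
      rw [if_pos ⟨by omega, by omega⟩]
    · refine eq_of_dg' hjlt (by omega) (hG _ hjlt _ ?_)
      rw [guard_four h4]
      unfold decGuard
      rw [if_neg (by omega), if_pos rfl]
    · intro i hi hi'
      symm
      refine dg_add_same (τ := τ) x a hadd ?_
      rw [to_four h4, from_four h4, if_neg (by omega), if_neg (by omega), if_neg (by omega),
        if_neg (by omega)]
  · refine blk_congr fun i hi => ?_
    refine dg_add_same (τ := τ) x a hadd ?_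
    rw [to_four h4, from_four h4, if_neg (by omega), if_neg (by omega), if_neg (by omega),
      if_neg (by omega)]

end Four

/-! ## The increment of the time -/

section Seven

variable (h7 : fκ τ = 7) (hj : D.fj τ < D.r) (ha : D.fa τ + 1 < D.s)
  {a : Fin (2 * D.r) → V} (hadd : IsAdd e τ a) (hG : GuardAt e τ x)

include h7 in
lemma guard_seven : D.guardN τ i = D.incGuard 0 (D.fj τ) (D.fa τ) i := by
  simp [guardN, h7]

include h7 in
lemma from_seven : D.fromN τ i = if i < D.fj τ then D.s - 1
    else if i = D.fj τ then D.fa τ else 0 := by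
  simp [fromN, h7]

include h7 in
lemma to_seven : D.toN τ i = if i < D.fj τ then 0
    else if i = D.fj τ then D.fa τ + 1 else 0 := by
  simp [toN, h7]

include h7 hj ha hadd hG in
lemma effect_seven :
    blk e (fun j => x j + a j) 0 = blk e x 0 + 1 ∧ blk e (fun j => x j + a j) D.r = blk e x D.r := by
  have hlt : ∀ i < D.fj τ, 0 + i < 2 * D.r := fun i hi => by omega
  have hjlt : 0 + D.fj τ < 2 * D.r := by omega
  constructor
  · refine blk_inc (a := D.fa τ) (j := D.fj τ) (by omega) hj ?_ ?_ ?_ ?_ ?_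
    · intro i hi
      refine eq_of_dg' (hlt i hi) (by omega) (hG _ (hlt i hi) _ ?_)
      rw [guard_seven h7]
      unfold incGuard
      rw [if_pos ⟨by omega, by omega⟩]
      omega
    · refine eq_of_dg' hjlt (by omega) (hG _ hjlt _ ?_)
      rw [guard_seven h7]
      unfold incGuard
      rw [if_neg (by omega), if_pos rfl]
    · intro i hi
      have h3 : x ⟨0 + i, hlt i hi⟩ = toV e (D.fromN τ (0 + i)) := by
        rw [from_seven h7, if_pos (by omega)]
        refine hG _ (hlt i hi) _ ?_
        rw [guard_seven h7]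
        unfold incGuard
        rw [if_pos ⟨by omega, by omega⟩]
        omega
      have h4 : D.toN τ (0 + i) = 0 := by
        rw [to_seven h7, if_pos (by omega)]
      rw [dg_add_move x a hadd (hlt i hi) h3 (by omega), h4]
    · have h3 : x ⟨0 + D.fj τ, hjlt⟩ = toV e (D.fromN τ (0 + D.fj τ)) := by
        rw [from_seven h7, if_neg (by omega), if_pos (by omega)]
        refine hG _ hjlt _ ?_
        rw [guard_seven h7]
        unfold incGuard
        rw [if_neg (by omega), if_pos (by omega)]
      have h4 : D.toN τ (0 + D.fj τ) = D.fa τ + 1 := by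
        rw [to_seven h7, if_neg (by omega), if_pos (by omega)]
      rw [dg_add_move x a hadd hjlt h3 (by omega), h4]
    · intro i hi hi'
      refine dg_add_same (τ := τ) x a hadd ?_
      rw [to_seven h7, from_seven h7, if_neg (by omega), if_neg (by omega), if_neg (by omega),
        if_neg (by omega)]
  · refine blk_congr fun i hi => ?_
    refine dg_add_same (τ := τ) x a hadd ?_
    rw [to_seven h7, from_seven h7, if_neg (by omega), if_neg (by omega), if_neg (by omega),
      if_neg (by omega)]

end Seven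

end Vale.Agent.Lib.P310.Tab.TD
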