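import Vale.Agent.Lib.P310.Tab.Digits
import Vale.Agent.Lib.P310.Tab.Rules

/-!
# Rule numbers: the fields of a rule number, and a number for every tuple of fields
-/

namespace Vale.Agent.Lib.P310.Tab.TD

variable (D : TD)

lemma S_pos : 0 < D.S := by unfold S; omega

lemma sent_lt_S : D.sent < D.S := by unfold S sent; omega

lemma fκ_lt (τ : ℕ) : fκ τ < 10 := Nat.mod_lt _ (by norm_num)
lemma fs₁_lt (τ : ℕ) : D.fs₁ τ < D.S := Nat.mod_lt _ D.S_pos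
lemma fs₂_lt (τ : ℕ) : D.fs₂ τ < D.S := Nat.mod_lt _ D.S_pos
lemma fs₃_lt (τ : ℕ) : D.fs₃ τ < D.S := Nat.mod_lt _ D.S_pos
lemma fj_lt (hr : 1 ≤ D.r) (τ : ℕ) : D.fj τ < 2 * D.r := Nat.mod_lt _ (by omega)

lemma fa_lt (hr : 1 ≤ D.r) {τ : ℕ} (h : τ < D.nR) : D.fa τ < D.s := by
  unfold fa
  have hS := D.S_pos
  rw [Nat.div_lt_iff_lt_mul (by omega), Nat.div_lt_iff_lt_mul hS, Nat.div_lt_iff_lt_mul hS,
    Nat.div_lt_iff_lt_mul hS, Nat.div_lt_iff_lt_mul (by norm_num)]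
  unfold nR at h
  calc τ < 10 * D.S * D.S * D.S * (2 * D.r) * D.s := h
    _ = _ := by ring

/-- The number of the rule with given fields. -/
def code (κ s₁ s₂ s₃ j a : ℕ) : ℕ :=
  κ + 10 * (s₁ + D.S * (s₂ + D.S * (s₃ + D.S * (j + 2 * D.r * a))))

variable {D} {κ s₁ s₂ s₃ j a : ℕ}

lemma fκ_code (hκ : κ < 10) : fκ (D.code κ s₁ s₂ s₃ j a) = κ := by
  unfold fκ code
  omega

lemma code_div (hκ : κ < 10) :
    D.code κ s₁ s₂ s₃ j a / 10 = s₁ + D.S * (s₂ + D.S * (s₃ + D.S * (j + 2 * D.r * a))) := by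
  unfold code
  omega

lemma fs₁_code (hκ : κ < 10) (h₁ : s₁ < D.S) : D.fs₁ (D.code κ s₁ s₂ s₃ j a) = s₁ := by
  unfold fs₁
  rw [code_div hκ, Nat.add_mul_mod_self_left, Nat.mod_eq_of_lt h₁]

lemma code_div₁ (hκ : κ < 10) (h₁ : s₁ < D.S) :
    D.code κ s₁ s₂ s₃ j a / 10 / D.S = s₂ + D.S * (s₃ + D.S * (j + 2 * D.r * a)) := by
  rw [code_div hκ, Nat.add_mul_div_left _ _ D.S_pos, Nat.div_eq_of_lt h₁, zero_add]

lemma fs₂_code (hκ : κ < 10) (h₁ : s₁ < D.S) (h₂ : s₂ < D.S) :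
    D.fs₂ (D.code κ s₁ s₂ s₃ j a) = s₂ := by
  unfold fs₂
  rw [code_div₁ hκ h₁, Nat.add_mul_mod_self_left, Nat.mod_eq_of_lt h₂]

lemma code_div₂ (hκ : κ < 10) (h₁ : s₁ < D.S) (h₂ : s₂ < D.S) :
    D.code κ s₁ s₂ s₃ j a / 10 / D.S / D.S = s₃ + D.S * (j + 2 * D.r * a) := by
  rw [code_div₁ hκ h₁, Nat.add_mul_div_left _ _ D.S_pos, Nat.div_eq_of_lt h₂, zero_add]

lemma fs₃_code (hκ : κ < 10) (h₁ : s₁ < D.S) (h₂ : s₂ < D.S) (h₃ : s₃ < D.S) :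
    D.fs₃ (D.code κ s₁ s₂ s₃ j a) = s₃ := by
  unfold fs₃
  rw [code_div₂ hκ h₁ h₂, Nat.add_mul_mod_self_left, Nat.mod_eq_of_lt h₃]

lemma code_div₃ (hκ : κ < 10) (h₁ : s₁ < D.S) (h₂ : s₂ < D.S) (h₃ : s₃ < D.S) :
    D.code κ s₁ s₂ s₃ j a / 10 / D.S / D.S / D.S = j + 2 * D.r * a := by
  rw [code_div₂ hκ h₁ h₂, Nat.add_mul_div_left _ _ D.S_pos, Nat.div_eq_of_lt h₃, zero_add]

lemma fj_code (hκ : κ < 10) (h₁ : s₁ < D.S) (h₂ : s₂ < D.S) (h₃ : s₃ < D.S)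
    (hj : j < 2 * D.r) : D.fj (D.code κ s₁ s₂ s₃ j a) = j := by
  unfold fj
  rw [code_div₃ hκ h₁ h₂ h₃, Nat.add_mul_mod_self_left, Nat.mod_eq_of_lt hj]

lemma fa_code (hκ : κ < 10) (h₁ : s₁ < D.S) (h₂ : s₂ < D.S) (h₃ : s₃ < D.S)
    (hj : j < 2 * D.r) : D.fa (D.code κ s₁ s₂ s₃ j a) = a := by
  unfold fa
  have hr : 0 < 2 * D.r := by omega
  rw [code_div₃ hκ h₁ h₂ h₃, Nat.add_mul_div_left _ _ hr, Nat.div_eq_of_lt hj, zero_add]

lemma code_lt (hκ : κ < 10) (h₁ : s₁ < D.S) (h₂ : s₂ < D.S) (h₃ : s₃ < D.S)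
    (hj : j < 2 * D.r) (ha : a < D.s) : D.code κ s₁ s₂ s₃ j a < D.nR := by
  have hS := D.S_pos
  have h4 : j + 2 * D.r * a < 2 * D.r * D.s := by
    have : (a + 1) * (2 * D.r) ≤ D.s * (2 * D.r) := Nat.mul_le_mul_right _ ha
    nlinarith
  have h5 : s₃ + D.S * (j + 2 * D.r * a) < D.S * (2 * D.r * D.s) := by
    have : (j + 2 * D.r * a + 1) * D.S ≤ (2 * D.r * D.s) * D.S := Nat.mul_le_mul_right _ h4
    nlinarith
  have h6 : s₂ + D.S * (s₃ + D.S * (j + 2 * D.r * a)) < D.S * (D.S * (2 * D.r * D.s)) := by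
    have : (s₃ + D.S * (j + 2 * D.r * a) + 1) * D.S ≤ (D.S * (2 * D.r * D.s)) * D.S :=
      Nat.mul_le_mul_right _ h5
    nlinarith
  have h7 : s₁ + D.S * (s₂ + D.S * (s₃ + D.S * (j + 2 * D.r * a))) <
      D.S * (D.S * (D.S * (2 * D.r * D.s))) := by
    have : (s₂ + D.S * (s₃ + D.S * (j + 2 * D.r * a)) + 1) * D.S ≤
        (D.S * (D.S * (2 * D.r * D.s))) * D.S := Nat.mul_le_mul_right _ h6
    nlinarith
  unfold code nR
  have h8 : 10 * D.S * D.S * D.S * (2 * D.r) * D.s = 10 * (D.S * (D.S * (D.S * (2 * D.r * D.s)))) := by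
    ring
  rw [h8]
  omega

/-- A division with remainder is unique. -/
lemma mul_add_inj {S x y x' y' : ℕ} (hy : y < S) (hy' : y' < S) (h : x * S + y = x' * S + y') :
    x = x' ∧ y = y' := by
  have hS : 0 < S := by omega
  have h1 : (x * S + y) / S = x := by
    rw [add_comm, Nat.add_mul_div_right _ _ hS, Nat.div_eq_of_lt hy, zero_add]
  have h2 : (x' * S + y') / S = x' := by
    rw [add_comm, Nat.add_mul_div_right _ _ hS, Nat.div_eq_of_lt hy', zero_add]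
  have h3 : x = x' := by rw [← h1, h, h2]
  subst h3
  exact ⟨rfl, by omega⟩

variable (D)

lemma stP_inj {x y x' y' : ℕ} (hy : y < D.S) (hy' : y' < D.S) (h : D.stP x y = D.stP x' y') :
    x = x' ∧ y = y' := by
  unfold stP at h
  exact mul_add_inj hy hy' (by omega)

lemma stP_lt_stA {x y : ℕ} (hx : x < D.S) (hy : y < D.S) : D.stP x y < D.stA := by
  unfold stP stA
  have : (x + 1) * D.S ≤ D.S * D.S := Nat.mul_le_mul_right _ hx
  nlinarith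

lemma stA_lt : D.stA < D.nP := by unfold nP stD; omega

lemma conclN_lt (τ : ℕ) : D.conclN τ < D.nP := by
  have hS := D.S_pos
  have h₁ := D.fs₁_lt τ
  have h₂ := D.fs₂_lt τ
  have hA := D.stA_lt
  have hP := D.stP_lt_stA h₁ h₂
  have hc : ∀ σ, D.clampS σ < D.S := fun σ => by unfold clampS; split_ifs <;> omega
  have hsent := D.sent_lt_S
  have hSS : 3 * D.S ≤ D.stA := by unfold stA; omega
  unfold conclN stC stL stR
  split_ifs
  · have := hc (D.initSym (D.fa τ)); omega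
  · omega
  · omega
  · omega
  · omega
  · omega
  · omega
  · have := hc (D.next (D.fs₁ τ) (D.fs₂ τ) (D.fs₃ τ)); omega
  · omega

lemma prem₁N_le (τ : ℕ) : D.prem₁N τ ≤ D.nP := by
  have hS := D.S_pos
  have h₁ := D.fs₁_lt τ
  have h₂ := D.fs₂_lt τ
  have hA := D.stA_lt
  have hP := D.stP_lt_stA h₁ h₂
  have hSS : 3 * D.S ≤ D.stA := by unfold stA; omega
  have hD : D.nP = D.stD + 1 := rfl
  have hD' : D.stD = D.stA + 1 := rfl
  unfold prem₁N stC stL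
  split_ifs <;> omega

lemma prem₂N_le (τ : ℕ) : D.prem₂N τ ≤ D.nP := by
  have hS := D.S_pos
  have h₂ := D.fs₂_lt τ
  have h₃ := D.fs₃_lt τ
  have hA := D.stA_lt
  have hSS : 3 * D.S ≤ D.stA := by unfold stA; omega
  have hD : D.nP = D.stD + 1 := rfl
  have hD' : D.stD = D.stA + 1 := rfl
  unfold prem₂N stC stR
  split_ifs <;> omega

lemma guardN_le (hs : 2 ≤ D.s) (hr : 1 ≤ D.r) {τ : ℕ} (hτ : τ < D.nR) (i : ℕ) :
    D.guardN τ i ≤ D.s + 1 := by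
  have ha := D.fa_lt hr hτ
  unfold guardN incGuard decGuard
  split_ifs <;> omega

lemma fromN_le (hs : 2 ≤ D.s) (hr : 1 ≤ D.r) {τ : ℕ} (hτ : τ < D.nR) (i : ℕ) :
    D.fromN τ i ≤ D.s := by
  have ha := D.fa_lt hr hτ
  unfold fromN
  split_ifs <;> omega

lemma toN_le (hs : 2 ≤ D.s) (hr : 1 ≤ D.r) {τ : ℕ} (hτ : τ < D.nR) (i : ℕ) :
    D.toN τ i ≤ D.s := by
  have ha := D.fa_lt hr hτ
  unfold toN
  split_ifs <;> omega

end Vale.Agent.Lib.P310.Tab.TD
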