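import Vale.Agent.Lib.P310.Tab.Fields

/-!
# Register vectors as digits, and the effect of a rule on the digits
-/

namespace Vale.Agent.Lib.P310.Tab.TD

variable {D : TD} {V : Type} [AddCommGroup V] (e : V ≃ Fin D.s)

/-- The digit in register `i`; out of range it is `0`. -/
noncomputable def dg (x : Fin (2 * D.r) → V) (i : ℕ) : ℕ :=
  if h : i < 2 * D.r then (e (x ⟨i, h⟩)).val else 0

/-- The number written in the `r` registers from `b` on. -/
noncomputable def blk (x : Fin (2 * D.r) → V) (b : ℕ) : ℕ :=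
  digVal D.s (fun i => dg e x (b + i)) D.r

/-- The tableau data: the symbols, the initial row, the steps, the blank right edge. -/
structure IsTableau (D : TD) (c : ℕ → ℕ → ℕ) : Prop where
  hs : 2 ≤ D.s
  hr : 1 ≤ D.r
  lt : ∀ t p, c t p < D.sent
  init : ∀ p, p < D.s → c 0 p = D.initSym p
  blank : ∀ p, D.s ≤ p → c 0 p = 0
  step : ∀ t p, D.next (if p = 0 then D.sent else c t (p - 1)) (c t p) (c t (p + 1)) = c (t + 1) p
  edge : ∀ t, t < D.s ^ D.r → c t (D.s ^ D.r) = 0

variable {e}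

lemma dg_of_lt (x : Fin (2 * D.r) → V) {i : ℕ} (h : i < 2 * D.r) :
    dg e x i = (e (x ⟨i, h⟩)).val := by
  unfold dg; rw [dif_pos h]

lemma dg_lt (hs : 2 ≤ D.s) (x : Fin (2 * D.r) → V) (i : ℕ) : dg e x i < D.s := by
  unfold dg
  split_ifs
  · exact Fin.isLt _
  · omega

lemma toV_val {n : ℕ} (h : n < D.s) : (e (toV e n)).val = n := by
  unfold toV
  rw [dif_pos h]
  simp

lemma toV_dg (x : Fin (2 * D.r) → V) {i : ℕ} (h : i < 2 * D.r) :
    toV e (dg e x i) = x ⟨i, h⟩ := by
  rw [dg_of_lt x h]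
  unfold toV
  rw [dif_pos (Fin.isLt _)]
  simp

lemma eq_of_dg {x y : Fin (2 * D.r) → V} {i : ℕ} (h : i < 2 * D.r) (hxy : dg e x i = dg e y i) :
    x ⟨i, h⟩ = y ⟨i, h⟩ := by
  rw [← toV_dg x h, ← toV_dg y h, hxy]

lemma eq_of_dg' {x : Fin (2 * D.r) → V} {i n : ℕ} (h : i < 2 * D.r) (hn : n < D.s)
    (hxy : x ⟨i, h⟩ = toV e n) : dg e x i = n := by
  rw [dg_of_lt x h, hxy, toV_val hn]

lemma dg_eq_of {x : Fin (2 * D.r) → V} {i n : ℕ} (h : i < 2 * D.r) (hxy : dg e x i = n) :
    x ⟨i, h⟩ = toV e n := by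
  rw [← hxy, toV_dg x h]

lemma blk_lt (hs : 2 ≤ D.s) (x : Fin (2 * D.r) → V) (b : ℕ) : blk e x b < D.s ^ D.r :=
  digVal_lt fun i _ => dg_lt hs x _

/-- The conclusion of a rule. -/
lemma rule_concl (τ : Fin D.nR) : ((D.rule e τ).concl).val = D.conclN τ := by
  show D.conclN τ % D.nP = D.conclN τ
  exact Nat.mod_eq_of_lt (D.conclN_lt τ)

lemma rule_add (τ : Fin D.nR) (j : Fin (2 * D.r)) :
    (D.rule e τ).add j = toV e (D.toN τ j) - toV e (D.fromN τ j) := rfl

lemma optP_eq (n : ℕ) (q : Fin D.nP) (h : D.optP n = some q) : n = q.val + 1 := by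
  unfold optP at h
  cases n with
  | zero => simp at h
  | succ n =>
    simp only at h
    split_ifs at h with hn
    simp only [Option.some.injEq] at h
    rw [← h]

lemma optP_some {n : ℕ} (h : n < D.nP) : D.optP (n + 1) = some ⟨n, h⟩ := by
  unfold optP
  simp [h]

/-- The guard of a rule on the digits. -/
lemma rule_guard_iff (τ : Fin D.nR) (x : Fin (2 * D.r) → V) :
    (D.rule e τ).guard.Holds x ↔
      ∀ (i : ℕ) (hi : i < 2 * D.r) (v : ℕ), D.guardN τ i = v + 1 → x ⟨i, hi⟩ = toV e v := by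
  constructor
  · intro h i hi v hv
    apply h ⟨i, hi⟩
    show (match D.guardN τ i with
      | 0 => none
      | v + 1 => some (toV e v)) = _
    rw [hv]
  · intro h j v hv
    change (match D.guardN τ j with
      | 0 => none
      | v + 1 => some (toV e v)) = _ at hv
    cases hg : D.guardN τ j with
    | zero =>
      rw [hg] at hv
      simp at hv
    | succ n =>
      rw [hg] at hv
      simp only [Option.some.injEq] at hv
      rw [← hv]
      exact h j j.isLt n hg

/-- A rule in a register vector: what happens to a digit. -/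
lemma dg_add_same {τ : ℕ} (x : Fin (2 * D.r) → V) {i : ℕ} (a : Fin (2 * D.r) → V)
    (ha : ∀ j : Fin (2 * D.r), a j = toV e (D.toN τ j) - toV e (D.fromN τ j))
    (h : D.toN τ i = D.fromN τ i) :
    dg e (fun j => x j + a j) i = dg e x i := by
  unfold dg
  split_ifs with hi
  · simp only [ha, h, sub_self, add_zero]
  · rfl

lemma dg_add_move {τ : ℕ} (x : Fin (2 * D.r) → V) {i : ℕ} (a : Fin (2 * D.r) → V)
    (ha : ∀ j : Fin (2 * D.r), a j = toV e (D.toN τ j) - toV e (D.fromN τ j))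
    (hi : i < 2 * D.r) (h : x ⟨i, hi⟩ = toV e (D.fromN τ i)) (hto : D.toN τ i < D.s) :
    dg e (fun j => x j + a j) i = D.toN τ i := by
  rw [dg_of_lt _ hi]
  simp only [ha, h, add_sub_cancel]
  exact toV_val hto

end Vale.Agent.Lib.P310.Tab.TD
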