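import Vale.Agent.Lib.P310.Tab.Effect

/-!
# Soundness of the tableau rules: derivable facts are true
-/

namespace Vale.Agent.Lib.P310.Tab.TD

variable {D : TD} {c : ℕ → ℕ → ℕ}

/-- The left neighbour. -/
def lft (D : TD) (c : ℕ → ℕ → ℕ) (t p : ℕ) : ℕ := if p = 0 then D.sent else c t (p - 1)

/-- The meaning of a control state at time `t` and position `p`. -/
def Sem (D : TD) (c : ℕ → ℕ → ℕ) (t p q : ℕ) : Prop :=
  (q < D.S → q = c t p) ∧
  (∀ σ, σ < D.S → q = D.stL σ → σ = lft D c t p) ∧
  (∀ σ, σ < D.S → q = D.stR σ → σ = c t (p + 1)) ∧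
  (∀ a b, a < D.S → b < D.S → q = D.stP a b → a = lft D c t p ∧ b = c t p) ∧
  (q = D.stA → ∃ t' < D.s ^ D.r, ∃ p', D.symH (c t' p') = 2) ∧
  q ≠ D.stD

variable {t p σ σ' : ℕ}

lemma stP_ge (a b : ℕ) : 3 * D.S ≤ D.stP a b := by unfold stP; omega

lemma three_le_stA : 3 * D.S ≤ D.stA := by unfold stA; omega

lemma stD_eq : D.stD = D.stA + 1 := rfl

lemma sem_stC (hσ : σ < D.S) (h : σ = c t p) : Sem D c t p (stC σ) := by
  have hA := three_le_stA (D := D)
  refine ⟨fun _ => h, ?_, ?_, ?_, ?_, ?_⟩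
  · intro τ _ h1; unfold stC stL at h1; omega
  · intro τ _ h1; unfold stC stR at h1; omega
  · intro a b _ _ h1; have := stP_ge (D := D) a b; unfold stC at h1; omega
  · intro h1; unfold stC at h1; omega
  · unfold stC; rw [stD_eq]; omega

lemma sem_stL (hσ : σ < D.S) (h : σ = lft D c t p) : Sem D c t p (D.stL σ) := by
  have hA := three_le_stA (D := D)
  refine ⟨?_, ?_, ?_, ?_, ?_, ?_⟩
  · intro h1; unfold stL at h1; omega
  · intro τ _ h1; unfold stL at h1; have : τ = σ := by omega
    rw [this]; exact h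
  · intro τ _ h1; unfold stL stR at h1; omega
  · intro a b _ _ h1; have := stP_ge (D := D) a b; unfold stL at h1; omega
  · intro h1; unfold stL at h1; omega
  · unfold stL; rw [stD_eq]; omega

lemma sem_stR (hσ : σ < D.S) (h : σ = c t (p + 1)) : Sem D c t p (D.stR σ) := by
  have hA := three_le_stA (D := D)
  refine ⟨?_, ?_, ?_, ?_, ?_, ?_⟩
  · intro h1; unfold stR at h1; omega
  · intro τ _ h1; unfold stL stR at h1; omega
  · intro τ _ h1; unfold stR at h1; have : τ = σ := by omega
    rw [this]; exact h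
  · intro a b _ _ h1; have := stP_ge (D := D) a b; unfold stR at h1; omega
  · intro h1; unfold stR at h1; omega
  · unfold stR; rw [stD_eq]; omega

lemma sem_stP (hσ : σ < D.S) (hσ' : σ' < D.S) (h : σ = lft D c t p) (h' : σ' = c t p) :
    Sem D c t p (D.stP σ σ') := by
  have hA := three_le_stA (D := D)
  have hP := D.stP_lt_stA hσ hσ'
  have hG := stP_ge (D := D) σ σ'
  refine ⟨?_, ?_, ?_, ?_, ?_, ?_⟩
  · intro h1; omega
  · intro τ _ h1; unfold stL at h1; omega
  · intro τ _ h1; unfold stR at h1; omega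
  · intro a b _ hb h1
    obtain ⟨rfl, rfl⟩ := D.stP_inj hσ' hb h1
    exact ⟨h, h'⟩
  · intro h1; omega
  · rw [stD_eq]; omega

lemma sem_stA (h : ∃ t' < D.s ^ D.r, ∃ p', D.symH (c t' p') = 2) : Sem D c t p D.stA := by
  have hA := three_le_stA (D := D)
  have hSpos := D.S_pos
  refine ⟨?_, ?_, ?_, ?_, ?_, ?_⟩
  · intro h1; omega
  · intro τ hτ h1; unfold stL at h1; omega
  · intro τ hτ h1; unfold stR at h1; omega
  · intro a b ha hb h1; have := D.stP_lt_stA ha hb; omega
  · exact fun _ => h
  · rw [stD_eq]; omega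

/-- One rule is sound. -/
lemma sem_step (hc : IsTableau D c) {V : Type} [AddCommGroup V] {e : V ≃ Fin D.s} {τ : ℕ}
    (hτ : τ < D.nR) {x a : Fin (2 * D.r) → V} (hadd : IsAdd e τ a) (hG : GuardAt e τ x)
    (H₁ : ∀ q, D.prem₁N τ = q + 1 → Sem D c (blk e x 0) (blk e x D.r) q)
    (H₂ : ∀ q, D.prem₂N τ = q + 1 → Sem D c (blk e x 0) (blk e x D.r) q) :
    Sem D c (blk e (fun j => x j + a j) 0) (blk e (fun j => x j + a j) D.r) (D.conclN τ) := by
  have hs := hc.hs
  have hr := hc.hr
  have hSlt : ∀ t p, c t p < D.S := fun t p => lt_trans (hc.lt t p) D.sent_lt_S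
  have hfa := D.fa_lt hr hτ
  have hsig₁ := D.fs₁_lt τ
  have hsig₂ := D.fs₂_lt τ
  have hsig₃ := D.fs₃_lt τ
  have hoff : D.off τ = false := by
    by_contra hne
    have h1 : D.off τ = true := by simpa using hne
    have h2 : D.prem₁N τ = D.stD + 1 := by simp [prem₁N, h1]
    exact (H₁ _ h2).2.2.2.2.2 rfl
  have hκ := fκ_lt τ
  have hcl : ∀ σ, σ < D.S → D.clampS σ = σ := fun σ h => by simp [clampS, h]
  have key : ∀ κ, κ = fκ τ → Sem D c (blk e (fun j => x j + a j) 0)
      (blk e (fun j => x j + a j) D.r) (D.conclN τ) := by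
    intro κ hκ'
    match κ, hκ' with
    | 0, hk =>
      have hk := hk.symm
      have hx := add_eq_zero hadd (τ := τ) (by omega) (by omega) (by omega) (by omega) x
      rw [hx]
      have hconcl : D.conclN τ = stC (D.clampS (D.initSym (D.fa τ))) := by simp [conclN, hk]
      have hg : ∀ i, D.guardN τ i =
          (if i = D.r then D.fa τ + 1 else if i < 2 * D.r then 1 else 0) := fun i => by
        simp [guardN, hk]
      have hT : blk e x 0 = 0 := by
        refine digVal_all_zero fun i hi => ?_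
        refine eq_of_dg' (by omega) (by omega) (hG _ (by omega) _ ?_)
        rw [hg, if_neg (by omega), if_pos (by omega)]
      have hP : blk e x D.r = D.fa τ := by
        have h1 : dg e x (D.r + 0) = D.fa τ := by
          refine eq_of_dg' (by omega) hfa (hG _ (by omega) _ ?_)
          rw [hg, if_pos (by omega)]
        rw [← h1]
        refine digVal_eq_head hr fun i hi hi' => ?_
        refine eq_of_dg' (by omega) (by omega) (hG _ (by omega) _ ?_)
        rw [hg, if_neg (by omega), if_pos (by omega)]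
      rw [hconcl, hT, hP]
      have h3 := hc.init _ hfa
      rw [← h3, hcl _ (hSlt _ _)]
      exact sem_stC (hSlt _ _) rfl
    | 1, hk =>
      have hk := hk.symm
      obtain ⟨h1, h2, h3⟩ := (off_one_iff hk).1 hoff
      have hx := add_eq_zero hadd (τ := τ) (by omega) (by omega) (by omega) (by omega) x
      rw [hx]
      have hconcl : D.conclN τ = stC 0 := by simp [conclN, hk]
      have hg : ∀ i, D.guardN τ i =
          (if i < D.r then 1 else if i = D.r + D.fj τ then D.fa τ + 1 else 0) := fun i => by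
        simp [guardN, hk]
      have hT : blk e x 0 = 0 := by
        refine digVal_all_zero fun i hi => ?_
        refine eq_of_dg' (by omega) (by omega) (hG _ (by omega) _ ?_)
        rw [hg, if_pos (by omega)]
      have hP : D.s ≤ blk e x D.r := by
        have h4 : dg e x (D.r + D.fj τ) = D.fa τ := by
          refine eq_of_dg' (by omega) hfa (hG _ (by omega) _ ?_)
          rw [hg, if_neg (by omega), if_pos rfl]
        have h5 : D.s ^ D.fj τ ≤ blk e x D.r :=
          pow_le_digVal (d := fun i => dg e x (D.r + i)) h1 (by simpa [h4] using h3)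
        have h6 : D.s ^ 1 ≤ D.s ^ D.fj τ := Nat.pow_le_pow_right (by omega) h2
        rw [pow_one] at h6
        omega
      rw [hconcl, hT]
      exact sem_stC D.S_pos (hc.blank _ hP).symm
    | 2, hk =>
      have hk := hk.symm
      obtain ⟨h1, h2⟩ := (off_two_iff hk).1 hoff
      obtain ⟨h3, h4⟩ := effect_two hk h1 h2 hadd hG
      rw [h3, h4, show D.conclN τ = D.stL (D.fs₁ τ) by simp [conclN, hk]]
      have h5 : D.prem₁N τ = stC (D.fs₁ τ) + 1 := by simp [prem₁N, hoff, hk]
      have h6 := (H₁ _ h5).1 hsig₁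
      refine sem_stL hsig₁ ?_
      simpa [lft, stC] using h6
    | 3, hk =>
      have hk := hk.symm
      have hx := add_eq_zero hadd (τ := τ) (by omega) (by omega) (by omega) (by omega) x
      rw [hx, show D.conclN τ = D.stL D.sent by simp [conclN, hk]]
      have hg : ∀ i, D.guardN τ i = (if D.r ≤ i ∧ i < 2 * D.r then 1 else 0) := fun i => by
        simp [guardN, hk]
      have hP : blk e x D.r = 0 := by
        refine digVal_all_zero fun i hi => ?_
        refine eq_of_dg' (by omega) (by omega) (hG _ (by omega) _ ?_)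
        rw [hg, if_pos ⟨by omega, by omega⟩]
      refine sem_stL D.sent_lt_S ?_
      rw [hP]
      simp [lft]
    | 4, hk =>
      have hk := hk.symm
      obtain ⟨h1, h2⟩ := (off_four_iff hk).1 hoff
      obtain ⟨h3, h4⟩ := effect_four hk h1 h2 hadd hG
      rw [h4, show D.conclN τ = D.stR (D.fs₁ τ) by simp [conclN, hk]]
      have h5 : D.prem₁N τ = stC (D.fs₁ τ) + 1 := by simp [prem₁N, hoff, hk]
      have h6 := (H₁ _ h5).1 hsig₁
      refine sem_stR hsig₁ ?_
      rw [← h3]
      exact h6
    | 5, hk =>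
      have hk := hk.symm
      have hx := add_eq_zero hadd (τ := τ) (by omega) (by omega) (by omega) (by omega) x
      rw [hx, show D.conclN τ = D.stR 0 by simp [conclN, hk]]
      have hg : ∀ i, D.guardN τ i = (if D.r ≤ i ∧ i < 2 * D.r then D.s else 0) := fun i => by
        simp [guardN, hk]
      have hP : blk e x D.r + 1 = D.s ^ D.r := by
        refine digVal_all_pred (by omega) fun i hi => ?_
        refine eq_of_dg' (by omega) (by omega) (hG _ (by omega) _ ?_)
        rw [hg, if_pos ⟨by omega, by omega⟩]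
        omega
      refine sem_stR D.S_pos ?_
      rw [hP, hc.edge _ (blk_lt hs x 0)]
    | 6, hk =>
      have hk := hk.symm
      have hx := add_eq_zero hadd (τ := τ) (by omega) (by omega) (by omega) (by omega) x
      rw [hx, show D.conclN τ = D.stP (D.fs₁ τ) (D.fs₂ τ) by simp [conclN, hk]]
      have h5 : D.prem₁N τ = D.stL (D.fs₁ τ) + 1 := by simp [prem₁N, hoff, hk]
      have h6 : D.prem₂N τ = stC (D.fs₂ τ) + 1 := by simp [prem₂N, hk]
      exact sem_stP hsig₁ hsig₂ ((H₁ _ h5).2.1 _ hsig₁ rfl) ((H₂ _ h6).1 hsig₂)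
    | 7, hk =>
      have hk := hk.symm
      obtain ⟨h1, h2⟩ := (off_seven_iff hk).1 hoff
      obtain ⟨h3, h4⟩ := effect_seven hk h1 h2 hadd hG
      rw [h3, h4]
      have h5 : D.prem₁N τ = D.stP (D.fs₁ τ) (D.fs₂ τ) + 1 := by simp [prem₁N, hoff, hk]
      have h6 : D.prem₂N τ = D.stR (D.fs₃ τ) + 1 := by simp [prem₂N, hk]
      obtain ⟨h7, h8⟩ := (H₁ _ h5).2.2.2.1 _ _ hsig₁ hsig₂ rfl
      have h9 := (H₂ _ h6).2.2.1 _ hsig₃ rfl
      have h10 : D.next (D.fs₁ τ) (D.fs₂ τ) (D.fs₃ τ) =
          c (blk e x 0 + 1) (blk e x D.r) := by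
        rw [h7, h8, h9]
        exact hc.step _ _
      have h11 : D.conclN τ = stC (D.clampS (D.next (D.fs₁ τ) (D.fs₂ τ) (D.fs₃ τ))) := by
        simp [conclN, hk]
      rw [h11, h10, hcl _ (hSlt _ _)]
      exact sem_stC (hSlt _ _) rfl
    | 8, hk =>
      have hk := hk.symm
      have h1 := (off_eight_iff hk).1 hoff
      have h5 : D.prem₁N τ = stC (D.fs₁ τ) + 1 := by simp [prem₁N, hoff, hk]
      have h6 := (H₁ _ h5).1 hsig₁
      rw [show D.conclN τ = D.stA by simp [conclN, hk]]
      refine sem_stA ⟨blk e x 0, blk_lt hs x 0, blk e x D.r, ?_⟩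
      rw [← h6]
      exact h1
    | 9, hk =>
      have hk := hk.symm
      have h5 : D.prem₁N τ = D.stA + 1 := by simp [prem₁N, hoff, hk]
      rw [show D.conclN τ = D.stA by simp [conclN, hk]]
      exact sem_stA ((H₁ _ h5).2.2.2.2.1 rfl)
    | n + 10, hk => omega
  exact key _ rfl

/-- Soundness: a derivable fact is true. -/
theorem sound (hc : IsTableau D c) {V : Type} [AddCommGroup V] {e : V ≃ Fin D.s} {q : Fin (D.prog e).nQ}
    {x : Fin (2 * D.r) → V} (h : (D.prog e).Derives q x) :
    Sem D c (blk e x 0) (blk e x D.r) q.val := by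
  induction h with
  | step r x hg h₁ h₂ ih₁ ih₂ =>
    have h3 : (((D.prog e).rule r).concl).val = D.conclN r := rule_concl (D := D) (e := e) r
    rw [h3]
    refine sem_step hc r.isLt (fun j => rule_add r j) ((rule_guard_iff r x).1 hg) ?_ ?_
    · intro q hq
      have hlt : q < D.nP := by have := D.prem₁N_le (r : ℕ); omega
      have h4 : (D.rule e r).prem₁ = some ⟨q, hlt⟩ := by
        show D.optP (D.prem₁N r) = _
        rw [hq]
        exact optP_some hlt
      exact ih₁ ⟨q, hlt⟩ h4
    · intro q hq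
      have hlt : q < D.nP := by have := D.prem₂N_le (r : ℕ); omega
      have h4 : (D.rule e r).prem₂ = some ⟨q, hlt⟩ := by
        show D.optP (D.prem₂N r) = _
        rw [hq]
        exact optP_some hlt
      exact ih₂ ⟨q, hlt⟩ h4

end Vale.Agent.Lib.P310.Tab.TD
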